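import Crest.Agent.R193.C.En
import Crest.Agent.R193.B.Cov

/-!
# R193/D/Defs: pictures, records (FROZEN).  Blueprint: notes193/R193.md, block D
-/

set_option autoImplicit false
open Set Metric Filter Topology MeasureTheory

namespace Crest.Agent.R193

variable {Z : Type} [MetricSpace Z]

/-- a bounded picture without pinch points and with sink `b` -/
structure Pic (Γ : Cov Z) (v : ℕ → Z → ℝ) (U : ℕ → Set Z) (k : ℕ → ℕ) (b : Z) : Prop where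
  bdd : ∀ l, Bdd (v l)
  rr : ∀ᶠ l in 𝒰, RR (v l) (U l)
  dom : ∀ ρ : ℝ, 0 < ρ → ∀ᶠ l in 𝒰, (ball b ρ)ᶜ ⊆ U l
  ktop : Tendsto k 𝒰 atTop
  fine : ∀ ρ : ℝ, 0 < ρ → Tendsto (fun l => Γ.En (k l) (v l) (ball b ρ)ᶜ) 𝒰 (𝓝 0)
  ener : ∀ ρ : ℝ, 0 < ρ → ∃ (C : ℝ) (j₀ : ℕ), ∀ j, j₀ ≤ j →
    ∀ᶠ l in 𝒰, Γ.En j (v l) (ball b ρ)ᶜ ≤ C
  nop : ∀ p, p ≠ b → ∀ ε : ℝ, 0 < ε → ∃ r : ℝ, 0 < r ∧ ∀ᶠ l in 𝒰, osc (v l) (ball p r) ≤ ε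
  base : ∃ x₀, x₀ ≠ b ∧ ∃ M : ℝ, ∀ᶠ l in 𝒰, |v l x₀| ≤ M
  ncst : ∃ ρ₀ ε₀ : ℝ, 0 < ρ₀ ∧ 0 < ε₀ ∧ ∀ᶠ l in 𝒰, ∃ a a', ρ₀ ≤ dist a b ∧ ρ₀ ≤ dist a' b ∧
    ε₀ ≤ |v l a - v l a'|

/-- `u` is the continuous locally uniform limit of `v l` off `b` -/
structure Lim (v : ℕ → Z → ℝ) (b : Z) (u : Z → ℝ) : Prop where
  cont : ContinuousOn u {b}ᶜ
  unif : ∀ ρ ε : ℝ, 0 < ρ → 0 < ε → ∀ᶠ l in 𝒰, ∀ z, ρ ≤ dist z b → |v l z - u z| ≤ ε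

/-- `u` is not locally constant at `x` -/
def NLC (u : Z → ℝ) (x : Z) : Prop := ∀ r : ℝ, 0 < r → ∃ z ∈ ball x r, u z ≠ u x

/-- the flow inequality inside `W` -/
def FlowOn (Γ : Cov Z) (u : Z → ℝ) (W : Set Z) : Prop :=
  ∀ (B : Set Z) (z : Z) (t : ℝ) (n : ℕ) (T : Finset Z), IsPreconnected B → B ⊆ ball z t →
    ball z t ⊆ W → (∀ a ∈ T, Γ.cell n a ⊆ W) → (∀ y, dist y z = t → ∃ a ∈ T, y ∈ Γ.cell n a) →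
      osc u B ≤ ∑ a ∈ T, osc u (Γ.cell n a)

/-- territory of a cell -/
def Cov.terr (Γ : Cov Z) (n : ℕ) (y : Z) : Set Z := ball y ((2 * Γ.L + 1) * sc n)

/-- good cells -/
def Good (Γ : Cov Z) (u : Z → ℝ) (j n : ℕ) (y : Z) : Prop :=
  0 < osc u (Γ.cell n y) ∧ ∀ x ∈ Γ.net (n + j), (Γ.cell (n + j) x ∩ Γ.cell n y).Nonempty →
    osc u (Γ.cell (n + j) x) < osc u (Γ.cell n y) / 5

/-- multiplicity constant of the balls of radius `2^q sc n` -/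
noncomputable def Cov.nb (Γ : Cov Z) (q : ℕ) : ℕ := (Γ.sum_En_ball_le (2 ^ q)).choose

/-- number of cells covering a sphere of radius `2^s sc k` -/
noncomputable def Cov.ns (Γ : Cov Z) (s : ℕ) : ℕ := (Γ.sphere_cover (2 ^ s)).choose

/-- rapidly decreasing weights -/
structure Wt (Γ : Cov Z) (w : ℕ → ℝ) : Prop where
  pos : ∀ q, 0 < w q
  zero : w 0 ≤ 1
  step : ∀ q s : ℕ, s ≤ q + 2 →
    w (q + 1) * (1 + (Γ.nb s : ℝ) + (Γ.ns s : ℝ) ^ 2) ≤ sc (q + 1) * w q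

/-- a near-extremal configuration at a record gap -/
structure Rec (Γ : Cov Z) (w : ℕ → ℝ) (m n k : ℕ) (y : Z) (v : Z → ℝ) (A : ℝ) : Prop where
  mem : y ∈ Γ.net n
  bdd : Bdd v
  rr : RR v (ball y (2 ^ m * sc n))
  gap : n + m ≤ k
  big : (m : ℝ) ≤ A
  pos : 0 < osc v (Γ.cell n y)
  up : ∀ q, q ≤ m → A * w q * Γ.En k v (ball y (2 ^ q * sc n)) ≤ 2 * osc v (Γ.cell n y) ^ 2
  sub : ∀ (n' : ℕ) (y' : Z), n ≤ n' → n' ≤ k → y' ∈ Γ.net n' →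
    ball y' (2 ^ m * sc n') ⊆ ball y (2 ^ m * sc n) →
    osc v (Γ.cell n' y') ^ 2 ≤
      A * ∑ q ∈ Finset.range (m + 1), w q * Γ.En k v (ball y' (2 ^ q * sc n'))

end Crest.Agent.R193
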