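import Crest.Agent.R193.D.Rec

/-!
# R193/D/Ener: bounded energies and equicontinuity of records

Write `μ(W) = A En k v W`, `M = osc v (cell n y)`; `Rec.up`: `μ(ball y (2^r sc n)) ≤ 2 M² / w r` for `r ≤ m`.

* `Rec.energy`: sum `Rec.sub` over the level `n+j` cells `c` inside `ball y (2^q sc n)`.  For `q' ≤ m` the balls `ball c (2^q' sc (n+j))` lie in
  `ball y (2^r sc n)`, `r = max q (q'-j) + 1 ≤ m`, so their `μ` add up to `≤ nb q' * 2M²/w r` (`(Γ.sum_En_ball_le _).choose_spec`).  If `r = q+1` use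
  `∑ w q' nb q' ≤ nb 0 + 1`; otherwise `r ≤ q'-1` and `w q' nb q' ≤ sc q' w (q'-1) ≤ sc q' w r`.
* `Rec.equi`: choose `s ≥ 2`, then `T`, `J` with `2T + s ≤ J`, `L sc (J - 2T) ≤ 1`.  The annuli `t_i/2 < dist · p < 3 t_i/2`, `t_i = sc (n+2i)`, `1 ≤ i ≤ T`, are
  disjoint and lie in `ball y (2^(q+1) sc n)`, so one has `μ ≤ 2M²/(w (q+1) T)` (`sum_En_le` with `N = 1`).  Cover the sphere of radius `t_i` by `≤ ns s` cells `d` of level
  `n+2i+s` (`(Γ.sphere_cover _).choose_spec`); `RR.flow` with `B = cell (n+J) p` and Cauchy–Schwarz: `osc(B)² ≤ ns s ∑_d osc(d)²`.  In `Rec.sub` for `d`: terms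
  `q' ≤ s-2` lie in the annulus (total `≤ 2 μ(annulus)`); for `q' ≥ s-1` the ball lies in `ball y (2^r sc n)`, `r = max (q+1) (q'-2i-s) + 1 ≤ m`; if `r = q+2` the total is
  `≤ 4 M² w (s-1)/w (q+2)` and `(ns s)² w (s-1) ≤ sc (s-1)`; otherwise `r ≤ q'-1` and `(ns s)² w q' ≤ sc q' w r`.
-/

set_option autoImplicit false
open Set Metric Filter Topology MeasureTheory

namespace Crest.Agent.R193

variable {Z : Type} [MetricSpace Z] {Γ : Cov Z} {w : ℕ → ℝ}

theorem sum_sc_le (s M : ℕ) : ∑ q ∈ Finset.Ico s M, sc q ≤ 2 * sc s := by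
  rcases le_or_gt s M with h | h
  · have : ∀ M, s ≤ M → ∑ q ∈ Finset.Ico s M, sc q + 2 * sc M ≤ 2 * sc s := fun M hM => by
      induction M, hM using Nat.le_induction with
      | base => simp
      | succ M hM ih => rw [Finset.sum_Ico_succ_top hM]; linarith [sc_succ M]
    linarith [this M h, sc_pos M]
  · rw [Finset.Ico_eq_empty_of_le h.le, Finset.sum_empty]
    linarith [sc_pos s]

theorem pow_mul_sc_le (q j : ℕ) : (2 : ℝ) ^ q * sc j ≤ 2 ^ (q - j) := by
  rcases le_total j q with h | h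
  · obtain ⟨d, rfl⟩ := Nat.exists_eq_add_of_le h
    rw [Nat.add_sub_cancel_left, pow_add, mul_comm (2 ^ j), mul_assoc, two_pow_mul_sc, mul_one]
  · obtain ⟨d, rfl⟩ := Nat.exists_eq_add_of_le h
    rw [Nat.sub_eq_zero_of_le h, sc_add, ← mul_assoc, two_pow_mul_sc, one_mul, pow_zero]
    exact sc_le_one d

omit [MetricSpace Z] in
theorem ball_sub_ball {Z : Type} [MetricSpace Z] {c y : Z} {n a q j : ℕ}
    (h : dist c y ≤ 2 ^ a * sc n) :
    ball c (2 ^ q * sc (n + j)) ⊆ ball y (2 ^ (max a (q - j) + 1) * sc n) := fun z hz => by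
  have hs := sc_pos n
  have h1 : (2 : ℝ) ^ a ≤ 2 ^ max a (q - j) := pow_le_pow_right₀ (by norm_num) (le_max_left _ _)
  have h2 : (2 : ℝ) ^ q * sc j ≤ 2 ^ max a (q - j) :=
    (pow_mul_sc_le q j).trans (pow_le_pow_right₀ (by norm_num) (le_max_right _ _))
  have h3 := mul_le_mul_of_nonneg_right h1 hs.le
  have h4 := mul_le_mul_of_nonneg_right h2 hs.le
  rw [mem_ball, sc_add] at hz
  rw [mem_ball, pow_succ]
  linarith [dist_triangle z c y]

theorem Rec.mu_le (hw : Wt Γ w) {m n k : ℕ} {y : Z} {v : Z → ℝ} {A : ℝ} (h : Rec Γ w m n k y v A)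
    {r : ℕ} (hr : r ≤ m) :
    A * Γ.En k v (ball y (2 ^ r * sc n)) ≤ 2 * osc v (Γ.cell n y) ^ 2 / w r := by
  rw [le_div_iff₀ (hw.pos r)]
  linarith [h.up r hr]

theorem Rec.A_nonneg {m n k : ℕ} {y : Z} {v : Z → ℝ} {A : ℝ} (h : Rec Γ w m n k y v A) : 0 ≤ A :=
  (Nat.cast_nonneg m).trans h.big

theorem Wt.nb_le (hw : Wt Γ w) (q : ℕ) : w (q + 1) * Γ.nb (q + 1) ≤ sc (q + 1) * w q :=
  le_trans (mul_le_mul_of_nonneg_left (by nlinarith [sq_nonneg (Γ.ns (q + 1) : ℝ)])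
    (hw.pos _).le) (hw.step q (q + 1) (by omega))

theorem Wt.ns_le (hw : Wt Γ w) {q s : ℕ} (hs : s ≤ q + 2) :
    w (q + 1) * (Γ.ns s : ℝ) ^ 2 ≤ sc (q + 1) * w q :=
  le_trans (mul_le_mul_of_nonneg_left (by linarith [Nat.cast_nonneg (α := ℝ) (Γ.nb s)])
    (hw.pos _).le) (hw.step q s hs)

theorem Rec.energy (hw : Wt Γ w) (q : ℕ) : ∃ C : ℝ, ∀ (m n k j : ℕ) (y : Z) (v : Z → ℝ) (A : ℝ),
    Rec Γ w m n k y v A → 2 ≤ j → n + j ≤ k → q + 2 ≤ m →
      Γ.En (n + j) v (ball y (2 ^ q * sc n)) ≤ C * osc v (Γ.cell n y) ^ 2 := by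
  classical
  have hwq := hw.pos (q + 1)
  have hwq1 : w (q + 1) ≤ 1 := (hw.anti (Nat.zero_le _)).trans hw.zero
  refine ⟨(Γ.nb 0 + 1) / w (q + 1) * 2 * 2, fun m n k j y v A h hj hk hq => ?_⟩
  set M := osc v (Γ.cell n y) with hM
  set T := (Γ.net (n + j)).filter (fun x => Γ.cell (n + j) x ⊆ ball y (2 ^ q * sc n)) with hT
  have hTd : ∀ x ∈ T, dist x y ≤ 2 ^ q * sc n := fun x hx =>
    le_of_lt ((Finset.mem_filter.1 hx).2 (Γ.mem_cell _ _))
  have hA := h.A_nonneg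
  have h1 : Γ.En (n + j) v (ball y (2 ^ q * sc n)) ≤ ∑ x ∈ T, A * ∑ q' ∈ Finset.range (m + 1),
      w q' * Γ.En k v (ball x (2 ^ q' * sc (n + j))) := by
    have : Γ.En (n + j) v (ball y (2 ^ q * sc n)) = ∑ x ∈ T, osc v (Γ.cell (n + j) x) ^ 2 := by
      unfold Cov.En; congr!
    rw [this]
    refine Finset.sum_le_sum fun x hx => h.sub (n + j) x (by omega) hk (Finset.mem_filter.1 hx).1
      ((ball_sub_ball (hTd x hx)).trans (ball_subset_ball (mul_le_mul_of_nonneg_right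
        (pow_le_pow_right₀ (by norm_num) (by omega)) (sc_pos n).le)))
  refine h1.trans ?_
  rw [← Finset.mul_sum, Finset.sum_comm, Finset.mul_sum]
  have h2 : ∀ q' ∈ Finset.range (m + 1),
      A * ∑ x ∈ T, w q' * Γ.En k v (ball x (2 ^ q' * sc (n + j))) ≤
        (Γ.nb 0 + 1) / w (q + 1) * 2 * M ^ 2 * sc q' := fun q' hq' => by
    have hq'm := Finset.mem_range.1 hq'
    set r := max q (q' - j) + 1 with hr
    have h3 : ∑ x ∈ T, Γ.En k v (ball x (2 ^ q' * sc (n + j))) ≤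
        Γ.nb q' * Γ.En k v (ball y (2 ^ r * sc n)) :=
      (Γ.sum_En_ball_le (2 ^ q')).choose_spec (n + j) k v T _ fun x hx =>
        ⟨(Finset.mem_filter.1 hx).1, ball_sub_ball (hTd x hx)⟩
    have h4 := h.mu_le hw (r := r) (by omega)
    have hwr := hw.pos r
    have h5 : w q' * Γ.nb q' / w r ≤ (Γ.nb 0 + 1) / w (q + 1) * sc q' := by
      have hn0 : (0 : ℝ) ≤ Γ.nb 0 := Nat.cast_nonneg _
      rcases q' with _ | p
      · have e : r = q + 1 := by omega
        rw [e, sc_zero, mul_one]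
        refine div_le_div_of_nonneg_right ?_ hwq.le
        nlinarith [hw.zero, hw.pos 0]
      · have h6 := hw.nb_le p
        have hsp := sc_pos (p + 1)
        rcases le_or_gt (p + 1 - j) q with hc | hc
        · have e : r = q + 1 := by omega
          have h7 : w p ≤ 1 := (hw.anti (Nat.zero_le _)).trans hw.zero
          rw [e, div_mul_eq_mul_div]
          refine div_le_div_of_nonneg_right ?_ hwq.le
          nlinarith
        · have h7 : w p ≤ w r := hw.anti (by omega)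
          have h8 : 1 ≤ (Γ.nb 0 + 1 : ℝ) / w (q + 1) := by
            rw [le_div_iff₀ hwq]; linarith
          rw [div_le_iff₀ hwr]
          have h9 := mul_le_mul_of_nonneg_left h7 hsp.le
          have h10 := mul_le_mul_of_nonneg_right h8 (mul_pos hsp hwr).le
          linarith
    rw [← Finset.mul_sum]
    have hwq' := hw.pos q'
    calc A * (w q' * ∑ x ∈ T, Γ.En k v (ball x (2 ^ q' * sc (n + j))))
        ≤ A * (w q' * (Γ.nb q' * Γ.En k v (ball y (2 ^ r * sc n)))) := by gcongr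
      _ = w q' * Γ.nb q' * (A * Γ.En k v (ball y (2 ^ r * sc n))) := by ring
      _ ≤ w q' * Γ.nb q' * (2 * M ^ 2 / w r) := by gcongr
      _ = w q' * Γ.nb q' / w r * (2 * M ^ 2) := by ring
      _ ≤ (Γ.nb 0 + 1) / w (q + 1) * sc q' * (2 * M ^ 2) := by gcongr
      _ = _ := by ring
  refine (Finset.sum_le_sum h2).trans ?_
  rw [← Finset.mul_sum, Finset.range_eq_Ico]
  have h6 := sum_sc_le 0 (m + 1)
  rw [sc_zero] at h6
  have h7 := mul_le_mul_of_nonneg_left h6
    (by positivity : 0 ≤ (Γ.nb 0 + 1) / w (q + 1) * 2 * M ^ 2)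
  linarith

theorem Rec.equi (hw : Wt Γ w) (q : ℕ) {ε : ℝ} (hε : 0 < ε) : ∃ J : ℕ,
    ∀ (m n k : ℕ) (y : Z) (v : Z → ℝ) (A : ℝ), Rec Γ w m n k y v A → J ≤ m → q + 3 ≤ m →
      ∀ p ∈ ball y (2 ^ q * sc n), osc v (ball p (sc (n + J))) ≤ ε * osc v (Γ.cell n y) := by
  classical
  have hL := Γ.L_pos
  have hw1 := hw.pos (q + 1)
  have hw2 := hw.pos (q + 2)
  have hw21 : w (q + 2) ≤ 1 := (hw.anti (Nat.zero_le _)).trans hw.zero
  obtain ⟨s₁, hs₁⟩ : ∃ s₁, 4 * sc (s₁ + 1) / w (q + 2) ≤ ε ^ 2 / 2 := by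
    have t1 : Tendsto (fun n => 4 * sc (n + 1) / w (q + 2)) atTop (𝓝 0) := by
      simpa using ((tendsto_sc.comp (tendsto_add_atTop_nat 1)).const_mul 4).div_const (w (q + 2))
    exact (t1.eventually (ge_mem_nhds (by positivity))).exists
  set N : ℝ := (Γ.ns (s₁ + 2) : ℝ) with hN
  have hN0 : 0 ≤ N := Nat.cast_nonneg _
  obtain ⟨T, hT1, hT⟩ : ∃ T : ℕ, 1 ≤ T ∧ (N ^ 2 * 4 / w (q + 1)) / T ≤ ε ^ 2 / 2 :=
    ((eventually_ge_atTop 1).and ((tendsto_const_div_atTop_nhds_zero_nat _).eventually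
      (ge_mem_nhds (by positivity)))).exists
  obtain ⟨c, hc⟩ : ∃ c, Γ.L * sc c ≤ 1 := by
    have t1 : Tendsto (fun n => Γ.L * sc n) atTop (𝓝 0) := by simpa using tendsto_sc.const_mul Γ.L
    exact (t1.eventually (ge_mem_nhds one_pos)).exists
  refine ⟨2 * T + (s₁ + 2) + c, fun m n k y v A h hJ hq p hp => ?_⟩
  set M := osc v (Γ.cell n y) with hM
  have hM0 : 0 < M := h.pos
  have hA := h.A_nonneg
  have hgap := h.gap
  have hsn := sc_pos n
  have hpy : dist p y < 2 ^ q * sc n := hp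
  have hq1 : sc n ≤ 2 ^ q * sc n := le_mul_of_one_le_left hsn.le (one_le_pow₀ (by norm_num))
  have hti : ∀ i, 1 ≤ i → sc (n + 2 * i) ≤ sc n / 4 := fun i hi => by
    have := sc_anti (m := n + 1 + 1) (n := n + 2 * i) (by omega)
    rw [sc_succ, sc_succ] at this
    linarith
  let Ann : ℕ → Set Z := fun i =>
    {z | sc (n + 2 * i) / 2 < dist z p ∧ dist z p < 3 * sc (n + 2 * i) / 2}
  have hsum := Γ.sum_En_le (Finset.Icc 1 T) k v (W := Ann) (W' := ball y (2 ^ (q + 1) * sc n))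
    (N := 1) (fun i hi z hz => by
      have h1 := hti i (Finset.mem_Icc.1 hi).1
      have h2 := hz.2
      rw [mem_ball, pow_succ]
      linarith [dist_triangle z p y]) (fun z T' _ hz => Finset.card_le_one.2 fun i hi i' hi' => by
      by_contra hne
      have key : ∀ a b, a < b → z ∈ Ann a → z ∈ Ann b → False := fun a b hab ha hb => by
        have := sc_anti (m := n + 2 * a + 1 + 1) (n := n + 2 * b) (by omega)
        rw [sc_succ, sc_succ] at this
        linarith [ha.1, hb.2, sc_pos (n + 2 * a)]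
      rcases lt_or_gt_of_ne hne with h1 | h1
      · exact key _ _ h1 (hz i hi) (hz i' hi')
      · exact key _ _ h1 (hz i' hi') (hz i hi))
  have hT0 : (0 : ℝ) < T := by exact_mod_cast hT1
  obtain ⟨i, hi, hAnn⟩ : ∃ i ∈ Finset.Icc 1 T,
      A * Γ.En k v (Ann i) ≤ 2 * M ^ 2 / w (q + 1) / T := by
    refine Finset.exists_le_of_sum_le ⟨1, Finset.mem_Icc.2 ⟨le_rfl, hT1⟩⟩ ?_
    rw [← Finset.mul_sum, Finset.sum_const, Nat.card_Icc, Nat.add_sub_cancel, nsmul_eq_mul,
      mul_div_cancel₀ _ hT0.ne']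
    rw [Nat.cast_one, one_mul] at hsum
    exact (mul_le_mul_of_nonneg_left hsum hA).trans (h.mu_le hw (by omega))
  obtain ⟨hi1, hiT⟩ := Finset.mem_Icc.1 hi
  set t := sc (n + 2 * i) with ht
  have ht0 : 0 < t := sc_pos _
  have ht4 : t ≤ sc n / 4 := hti i hi1
  set n' := n + (2 * i + (s₁ + 2)) with hn'
  have hn't : sc n' = t * sc (s₁ + 2) := by rw [hn', ← add_assoc, sc_add]
  have hs4 : sc (s₁ + 2) ≤ 1 / 4 := by
    rw [sc_succ, sc_succ]
    linarith [sc_le_one s₁]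
  have hn'4 : sc n' ≤ t / 4 := by rw [hn't]; nlinarith
  obtain ⟨D, hD1, hD2, hD3⟩ := (Γ.sphere_cover (2 ^ (s₁ + 2))).choose_spec n' p t (by
    rw [hn't, mul_comm t, ← mul_assoc, two_pow_mul_sc, one_mul])
  have hD1' : (D.card : ℝ) ≤ N := Nat.cast_le.2 hD1
  have hdy : ∀ d ∈ D, dist d y ≤ 2 ^ (q + 1) * sc n := fun d hd => by
    have h1 := (abs_lt.1 (hD2 d hd).2).2
    rw [pow_succ]
    linarith [dist_triangle d p y]
  have hflow := h.rr.flow h.bdd (Γ.conn (n + (2 * T + (s₁ + 2) + c)) p) (z := p) (t := t)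
    ((Γ.sup _ _).trans (ball_subset_ball (by
      have h1 : sc (n + (2 * T + (s₁ + 2) + c)) ≤ sc (n + 2 * i + c) := sc_anti (by omega)
      rw [sc_add (n + 2 * i)] at h1
      have h2 := mul_le_mul_of_nonneg_left h1 hL.le
      have h3 := mul_le_mul_of_nonneg_left hc ht0.le
      linarith)))
    (fun z hz => by
      have h1 : (2 : ℝ) ^ (q + 1) * sc n ≤ 2 ^ m * sc n :=
        mul_le_mul_of_nonneg_right (pow_le_pow_right₀ (by norm_num) (by omega)) hsn.le
      rw [pow_succ] at h1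
      rw [mem_ball] at hz ⊢
      linarith [dist_triangle z p y]) D (c := Γ.cell n') (fun d _ => Γ.isOpen _ _) hD3
  have hd : ∀ d ∈ D, N ^ 2 * osc v (Γ.cell n' d) ^ 2 ≤ (ε * M) ^ 2 := fun d hd => by
    have h1 := h.sub n' d (by omega) (by omega) (hD2 d hd).1
      ((ball_sub_ball (hdy d hd)).trans (ball_subset_ball (mul_le_mul_of_nonneg_right
        (pow_le_pow_right₀ (by norm_num) (by omega)) hsn.le)))
    rw [Finset.range_eq_Ico, ← Finset.sum_Ico_consecutive _ (Nat.zero_le (s₁ + 1)) (by omega),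
      mul_add] at h1
    have h2 : A * ∑ q' ∈ Finset.Ico 0 (s₁ + 1), w q' * Γ.En k v (ball d (2 ^ q' * sc n')) ≤
        2 * (2 * M ^ 2 / w (q + 1) / T) := by
      have h3 : ∑ q' ∈ Finset.Ico 0 (s₁ + 1), w q' * Γ.En k v (ball d (2 ^ q' * sc n')) ≤
          ∑ q' ∈ Finset.Ico 0 (s₁ + 1), w q' * Γ.En k v (Ann i) :=
        Finset.sum_le_sum fun q' hq' => mul_le_mul_of_nonneg_left (Γ.En_mono _ _ fun z hz => by
          have h4 : (2 : ℝ) ^ q' ≤ 2 ^ s₁ :=
            pow_le_pow_right₀ (by norm_num) (by have := (Finset.mem_Ico.1 hq').2; omega)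
          have h5 : (2 : ℝ) ^ s₁ * sc n' = t / 4 := by
            rw [hn't, sc_succ, sc_succ]
            have := two_pow_mul_sc s₁
            linear_combination (t / 4) * this
          have h6 := mul_le_mul_of_nonneg_right h4 (sc_pos n').le
          have h7 := abs_lt.1 (hD2 d hd).2
          rw [mem_ball] at hz
          have h8 := dist_triangle z d p
          have h9 := dist_triangle_left d p z
          exact ⟨by linarith [h7.1], by linarith [h7.2]⟩) (hw.pos q').le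
      rw [← Finset.sum_mul] at h3
      have h4 : ∑ q' ∈ Finset.Ico 0 (s₁ + 1), w q' ≤ 2 :=
        (hw.sum_le 0 _).trans (by linarith [hw.zero])
      have h5 := mul_le_mul_of_nonneg_right h4 (Γ.En_nonneg k v (Ann i))
      have h6 := mul_le_mul_of_nonneg_left (h3.trans h5) hA
      linarith
    have h3 : N ^ 2 * (A * ∑ q' ∈ Finset.Ico (s₁ + 1) (m + 1),
        w q' * Γ.En k v (ball d (2 ^ q' * sc n'))) ≤ 2 * M ^ 2 / w (q + 2) * (2 * sc (s₁ + 1)) := by
      rw [Finset.mul_sum, Finset.mul_sum]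
      refine le_trans (Finset.sum_le_sum fun q' hq' => ?_) (le_trans (Finset.mul_sum _ _ _).symm.le
        (mul_le_mul_of_nonneg_left (sum_sc_le (s₁ + 1) (m + 1)) (by positivity)))
      obtain ⟨hq1', hq2'⟩ := Finset.mem_Ico.1 hq'
      obtain ⟨p', rfl⟩ : ∃ p', q' = p' + 1 := ⟨q' - 1, by omega⟩
      set r := max (q + 1) (p' + 1 - (2 * i + (s₁ + 2))) + 1 with hr
      have h4 := (mul_le_mul_of_nonneg_left (Γ.En_mono k v
        (ball_sub_ball (q := p' + 1) (j := 2 * i + (s₁ + 2)) (hdy d hd))) hA).trans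
        (h.mu_le hw (r := r) (by omega))
      have h5 := hw.ns_le (q := p') (s := s₁ + 2) (by omega)
      have hwr := hw.pos r
      have hsp := sc_pos (p' + 1)
      have hwp := hw.pos (p' + 1)
      have h6 : w p' / w r ≤ 1 / w (q + 2) := by
        rcases le_or_gt (p' + 1 - (2 * i + (s₁ + 2))) (q + 1) with hc' | hc'
        · have e : r = q + 2 := by omega
          rw [e]
          exact div_le_div_of_nonneg_right ((hw.anti (Nat.zero_le _)).trans hw.zero) hw2.le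
        · exact ((div_le_one hwr).2 (hw.anti (by omega))).trans ((one_le_div hw2).2 hw21)
      calc N ^ 2 * (A * (w (p' + 1) * Γ.En k v (ball d (2 ^ (p' + 1) * sc n'))))
          = w (p' + 1) * N ^ 2 * (A * Γ.En k v (ball d (2 ^ (p' + 1) * sc n'))) := by ring
        _ ≤ sc (p' + 1) * w p' * (2 * M ^ 2 / w r) :=
          mul_le_mul h5 h4 (mul_nonneg hA (Γ.En_nonneg _ _ _)) (mul_pos hsp (hw.pos _)).le
        _ = 2 * M ^ 2 * sc (p' + 1) * (w p' / w r) := by ring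
        _ ≤ 2 * M ^ 2 * sc (p' + 1) * (1 / w (q + 2)) := by gcongr
        _ = _ := by ring
    have h4 := mul_le_mul_of_nonneg_left h1 (sq_nonneg N)
    have h5 := mul_le_mul_of_nonneg_left h2 (sq_nonneg N)
    have h6 := mul_le_mul_of_nonneg_right hT (sq_nonneg M)
    have h7 := mul_le_mul_of_nonneg_right hs₁ (sq_nonneg M)
    have e1 : N ^ 2 * (2 * (2 * M ^ 2 / w (q + 1) / T)) = N ^ 2 * 4 / w (q + 1) / T * M ^ 2 := by ring
    have e2 : 2 * M ^ 2 / w (q + 2) * (2 * sc (s₁ + 1)) = 4 * sc (s₁ + 1) / w (q + 2) * M ^ 2 := by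
      ring
    rw [mul_add] at h4
    rw [mul_pow]
    linarith
  refine (osc_mono (h.bdd.isBounded _) ((ball_subset_ball (by
    linarith [sc_pos (n + (2 * T + (s₁ + 2) + c))])).trans (Γ.sub _ p))).trans (hflow.trans ?_)
  have hd' : ∀ d ∈ D, N * osc v (Γ.cell n' d) ≤ ε * M := fun d hd' =>
    (pow_le_pow_iff_left₀ (mul_nonneg hN0 (osc_nonneg _ _)) (by positivity) two_ne_zero).1
      (by rw [mul_pow]; exact hd d hd')
  rcases D.eq_empty_or_nonempty with rfl | hne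
  · simp; positivity
  · have hN1 : 0 < N := lt_of_lt_of_le (by exact_mod_cast hne.card_pos) hD1'
    have h1 : N * ∑ d ∈ D, osc v (Γ.cell n' d) ≤ N * (ε * M) := by
      rw [Finset.mul_sum]
      refine (Finset.sum_le_sum hd').trans ?_
      rw [Finset.sum_const, nsmul_eq_mul]
      exact mul_le_mul_of_nonneg_right hD1' (by positivity)
    exact le_of_mul_le_mul_left h1 hN1

end Crest.Agent.R193
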