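import Mathlib

/-!
# R193/D/Tree: abstract branching lemma

Take `M = 2 N₁ (j+1) + 1`, the start family `X₀` at level `n₀`, `m₀ > 0` the least mass in `X₀`.  Induction on `t`: a finset `X t` of ok nodes with pairwise
disjoint territories, levels in `[n₀, n₀ + t j]`, masses `≥ κ^t m₀`, `card ≥ (K/2)^t M` (as reals).  At most `N₁ (t j + 1) ≤ card / 2` of them are good (split by level;
`2^t M ≥ 2 N₁ (t j + 1)`); the children of the others (`Finset.biUnion`, disjoint since territories are nonempty and disjoint) form `X (t+1)`.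
Then `2^t M m₀² ≤ ∑ mass² ≤ (t j + 1) C` for all `t`.
-/

set_option autoImplicit false

namespace Crest.Agent.R193

theorem tree {N Y : Type} (lev : N → ℕ) (terr : N → Set Y) (mass : N → ℝ) (ok good : N → Prop)
    (K j N₁ n₁ : ℕ) (κ C : ℝ) (hκ : 0 < κ) (hκ1 : κ ≤ 1) (hK : 4 ≤ K * κ ^ 2)
    (hok : ∀ p, ok p → 0 < mass p ∧ (terr p).Nonempty)
    (hch : ∀ p, ok p → ¬ good p → ∃ S : Finset N, K ≤ S.card ∧
      (∀ q ∈ S, ok q ∧ lev p ≤ lev q ∧ lev q ≤ lev p + j ∧ κ * mass p ≤ mass q ∧ terr q ⊆ terr p) ∧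
      ∀ q ∈ S, ∀ q' ∈ S, q ≠ q' → Disjoint (terr q) (terr q'))
    (hen : ∀ n, n₁ ≤ n → ∀ S : Finset N, (∀ p ∈ S, ok p ∧ lev p = n) → ∑ p ∈ S, mass p ^ 2 ≤ C)
    (hfew : ∀ (n : ℕ) (S : Finset N), (∀ p ∈ S, ok p ∧ good p ∧ lev p = n) → S.card ≤ N₁)
    (hstart : ∀ M : ℕ, ∃ (n : ℕ) (S : Finset N), n₁ ≤ n ∧ M ≤ S.card ∧ (∀ p ∈ S, ok p ∧ lev p = n) ∧
      ∀ q ∈ S, ∀ q' ∈ S, q ≠ q' → Disjoint (terr q) (terr q')) : False := by
  classical
  obtain ⟨n₀, X₀, hn₀, hM, hX₀, hd₀⟩ := hstart (2 * N₁ * (j + 1) + 1)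
  obtain ⟨p₀, hp₀, hmin⟩ := X₀.exists_min_image mass (Finset.card_pos.1 (by omega))
  set m₀ := mass p₀ with hm₀
  have hm0 : 0 < m₀ := (hok p₀ (hX₀ p₀ hp₀).1).1
  have hK0 : (0 : ℝ) ≤ K := Nat.cast_nonneg K
  have hK4 : (4 : ℝ) ≤ K := hK.trans (mul_le_of_le_one_right hK0 (pow_le_one₀ hκ.le hκ1))
  have hsplit : ∀ (t : ℕ) (S : Finset N) (f : N → ℝ) (B : ℝ),
      (∀ p ∈ S, n₀ ≤ lev p ∧ lev p ≤ n₀ + t * j) →
      (∀ n, n₀ ≤ n → ∑ p ∈ S.filter (fun p => lev p = n), f p ≤ B) →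
      ∑ p ∈ S, f p ≤ (t * j + 1) * B := fun t S f B h1 h2 => by
    rw [← Finset.sum_fiberwise_of_maps_to (t := Finset.Icc n₀ (n₀ + t * j)) (g := lev)
      (fun p hp => Finset.mem_Icc.2 (h1 p hp))]
    refine (Finset.sum_le_sum fun n hn => h2 n (Finset.mem_Icc.1 hn).1).trans_eq ?_
    rw [Finset.sum_const, Nat.card_Icc, nsmul_eq_mul,
      show n₀ + t * j + 1 - n₀ = t * j + 1 by omega]
    push_cast; ring
  choose! ch hc1 hc2 hc3 using hch
  have gen : ∀ t : ℕ, ∃ X : Finset N, (K / 2 : ℝ) ^ t * (2 * N₁ * (j + 1) + 1) ≤ X.card ∧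
      (∀ p ∈ X, ok p ∧ n₀ ≤ lev p ∧ lev p ≤ n₀ + t * j ∧ κ ^ t * m₀ ≤ mass p) ∧
      ∀ q ∈ X, ∀ q' ∈ X, q ≠ q' → Disjoint (terr q) (terr q') := fun t => by
    induction t with
    | zero =>
      refine ⟨X₀, by rw [pow_zero, one_mul]; exact_mod_cast hM, fun p hp => ⟨(hX₀ p hp).1,
        (hX₀ p hp).2.ge, by simp [(hX₀ p hp).2], by simpa using hmin p hp⟩, hd₀⟩
    | succ t ih =>
      obtain ⟨X, h1, h2, h3⟩ := ih
      set Y := X.filter (fun p => ¬ good p) with hY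
      have hYX : ∀ p ∈ Y, p ∈ X ∧ ¬ good p := fun p hp => Finset.mem_filter.1 hp
      have hg : ((X.filter good).card : ℝ) ≤ (t * j + 1) * N₁ := by
        rw [Finset.card_eq_sum_ones]
        push_cast
        refine hsplit t _ _ _ (fun p hp => ⟨(h2 p (Finset.mem_filter.1 hp).1).2.1,
          (h2 p (Finset.mem_filter.1 hp).1).2.2.1⟩) fun n _ => ?_
        rw [Finset.sum_const, nsmul_eq_mul, mul_one]
        exact_mod_cast hfew n _ fun p hp => by
          obtain ⟨hp1, hp2⟩ := Finset.mem_filter.1 hp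
          obtain ⟨hp3, hp4⟩ := Finset.mem_filter.1 hp1
          exact ⟨(h2 p hp3).1, hp4, hp2⟩
      have hcard : ((X.filter good).card : ℝ) + Y.card = X.card := by
        exact_mod_cast Finset.card_filter_add_card_filter_not good
      have h2t : (2 : ℝ) ^ t ≤ (K / 2 : ℝ) ^ t := pow_le_pow_left₀ (by norm_num) (by linarith) t
      have ht2 : (t : ℝ) ≤ 2 ^ t := by exact_mod_cast Nat.lt_two_pow_self.le
      have h12 : (1 : ℝ) ≤ 2 ^ t := one_le_pow₀ (by norm_num)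
      have hj0 : (0 : ℝ) ≤ j := Nat.cast_nonneg j
      have hN0 : (0 : ℝ) ≤ N₁ := Nat.cast_nonneg N₁
      have h4 : (t * j + 1 : ℝ) ≤ (K / 2 : ℝ) ^ t * (j + 1) := by nlinarith
      have h5 : (X.card : ℝ) ≤ 2 * Y.card := by nlinarith
      have hdis : (Y : Set N).PairwiseDisjoint ch := fun p hp p' hp' hne =>
        Finset.disjoint_left.2 fun q hq hq' => by
          obtain ⟨a1, a2⟩ := hYX p hp
          obtain ⟨b1, b2⟩ := hYX p' hp'
          have e1 := hc2 p (h2 p a1).1 a2 q hq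
          have e2 := hc2 p' (h2 p' b1).1 b2 q hq'
          obtain ⟨z, hz⟩ := (hok q e1.1).2
          exact Set.disjoint_left.1 (h3 p a1 p' b1 hne) (e1.2.2.2.2 hz) (e2.2.2.2.2 hz)
      refine ⟨Y.biUnion ch, ?_, fun q hq => ?_, fun q hq q' hq' hne => ?_⟩
      · rw [Finset.card_biUnion hdis]
        have h6 : (Y.card * K : ℝ) ≤ (∑ p ∈ Y, (ch p).card : ℕ) := by
          exact_mod_cast Finset.card_nsmul_le_sum Y (fun p => (ch p).card) K
            fun p hp => hc1 p (h2 p (hYX p hp).1).1 (hYX p hp).2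
        have h7 := mul_le_mul_of_nonneg_left (h1.trans h5) (by positivity : (0 : ℝ) ≤ K / 2)
        rw [pow_succ]
        linarith
      · obtain ⟨p, hp, hq⟩ := Finset.mem_biUnion.1 hq
        obtain ⟨a1, a2⟩ := hYX p hp
        obtain ⟨b1, b2, b3, b4⟩ := h2 p a1
        obtain ⟨e1, e2, e3, e4, -⟩ := hc2 p b1 a2 q hq
        refine ⟨e1, b2.trans e2, by rw [add_mul, one_mul]; omega, le_trans ?_ e4⟩
        rw [pow_succ, mul_comm _ κ, mul_assoc]
        exact mul_le_mul_of_nonneg_left b4 hκ.le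
      · obtain ⟨p, hp, hq⟩ := Finset.mem_biUnion.1 hq
        obtain ⟨p', hp', hq'⟩ := Finset.mem_biUnion.1 hq'
        obtain ⟨a1, a2⟩ := hYX p hp
        obtain ⟨b1, b2⟩ := hYX p' hp'
        by_cases e : p = p'
        · subst e
          exact hc3 p (h2 p a1).1 a2 q hq q' hq' hne
        · exact (h3 p a1 p' b1 e).mono (hc2 p (h2 p a1).1 a2 q hq).2.2.2.2
            (hc2 p' (h2 p' b1).1 b2 q' hq').2.2.2.2
  have fin : ∀ t : ℕ, m₀ ^ 2 ≤ j * C * ((t : ℝ) ^ 1 / 2 ^ t) + C * ((t : ℝ) ^ 0 / 2 ^ t) := fun t => by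
    obtain ⟨X, h1, h2, -⟩ := gen t
    have h3 := hsplit t X (fun p => mass p ^ 2) C (fun p hp => ⟨(h2 p hp).2.1, (h2 p hp).2.2.1⟩)
      fun n hn => hen n (hn₀.trans hn) _ fun p hp =>
        ⟨(h2 p (Finset.mem_filter.1 hp).1).1, (Finset.mem_filter.1 hp).2⟩
    have h4 : X.card • (κ ^ t * m₀) ^ 2 ≤ ∑ p ∈ X, mass p ^ 2 := Finset.card_nsmul_le_sum X _ _
      fun p hp => pow_le_pow_left₀ (by positivity) (h2 p hp).2.2.2 2
    rw [nsmul_eq_mul] at h4
    have h5 : (K / 2 : ℝ) ^ t ≤ X.card := le_trans (le_mul_of_one_le_right (by positivity) (by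
      have : (0 : ℝ) ≤ 2 * N₁ * (j + 1) := by positivity
      linarith)) h1
    have h6 : (2 : ℝ) ^ t ≤ (K / 2 : ℝ) ^ t * (κ ^ t) ^ 2 := by
      rw [← pow_mul, mul_comm t 2, pow_mul, ← mul_pow]
      exact pow_le_pow_left₀ (by norm_num) (by linarith) t
    have h7 := mul_le_mul_of_nonneg_right h5 (sq_nonneg (κ ^ t * m₀))
    have h8 := mul_le_mul_of_nonneg_right h6 (sq_nonneg m₀)
    have h9 : (0 : ℝ) < 2 ^ t := by positivity
    rw [← mul_div_assoc, ← mul_div_assoc, ← add_div, le_div_iff₀ h9]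
    rw [mul_pow] at h4 h7
    linarith
  have hlim := ((tendsto_pow_const_div_const_pow_of_one_lt 1 (one_lt_two (α := ℝ))).const_mul
    (j * C)).add ((tendsto_pow_const_div_const_pow_of_one_lt 0 (one_lt_two (α := ℝ))).const_mul C)
  have := ge_of_tendsto' hlim fin
  simp only [mul_zero, add_zero] at this
  exact absurd this (not_le.2 (by positivity))

end Crest.Agent.R193
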