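import Crest.Agent.R193.D.Defs
import Crest.Agent.R193.D.Tree

/-!
# R193/D/Growth: many good cells at one level

* `children`: `R = 2L+1`, `N₀` from `sphere_cover (3 (R+1))`, `κ = 1/(5 (N₀+1))`, `4 (R+1) sc i₀ ≤ 1`.  `x'` the centre of a level `n+j` cell meeting
  `cell n y` with `osc ≥ m/5`.  For `i ∈ [i₀, j]` apply `FlowOn` to `B = cell (n+j) x'`, `z = x'`, `t = 3 (R+1) sc (n+i)`, level `n+i`.  The territory of the child
  lies in `2 (R+1) sc (n+i) < dist · x' < 4 (R+1) sc (n+i)`.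
* `start`: spheres about `x₀` of radii `r₀/4 + i r₀/(4M)`, `i < M`, `(R+1) sc n < r₀/(8M)`, `B` a cell `Γ.cell n' x₀ ⊆ ball x₀ (r₀/4)` (positive
  oscillation by `NLC`).
* `growth`: `tree` with `N = ℕ × Z`, `ok (n,y) = y ∈ net n ∧ terr n y ⊆ W ∧ 0 < osc`, `K = j - i₀ + 1`.
-/

set_option autoImplicit false
open Set Metric Filter Topology MeasureTheory

namespace Crest.Agent.R193

variable {Z : Type} [MetricSpace Z] (Γ : Cov Z)

theorem Cov.cell_subset_terr (n : ℕ) (y : Z) : Γ.cell n y ⊆ Γ.terr n y := (Γ.sup n y).trans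
  (ball_subset_ball (mul_le_mul_of_nonneg_right (by linarith [Γ.L_pos]) (sc_pos n).le))

theorem exists_ge_avg {α : Type} (T : Finset α) (f : α → ℝ) {N : ℕ} {a : ℝ} (ha : 0 < a)
    (hT : T.card ≤ N) (h : a ≤ ∑ x ∈ T, f x) : ∃ x ∈ T, a / (N + 1) ≤ f x := by
  by_contra hc
  push Not at hc
  have h1 := Finset.sum_le_card_nsmul T f _ fun x hx => (hc x hx).le
  rw [nsmul_eq_mul] at h1
  have h2 : (T.card : ℝ) ≤ N := Nat.cast_le.2 hT
  have h3 : (N : ℝ) * (a / (N + 1)) < a := by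
    rw [← mul_div_assoc, div_lt_iff₀ (by positivity)]; linarith
  have h4 := mul_le_mul_of_nonneg_right h2 (by positivity : 0 ≤ a / (N + 1))
  linarith

theorem children : ∃ (i₀ : ℕ) (κ : ℝ), 0 < κ ∧ κ ≤ 1 ∧ ∀ (j n : ℕ) (u : Z → ℝ) (W : Set Z) (y : Z),
    i₀ ≤ j → Bornology.IsBounded (u '' W) → FlowOn Γ u W → Γ.terr n y ⊆ W →
    0 < osc u (Γ.cell n y) → ¬ Good Γ u j n y → ∃ ch : ℕ → Z,
      (∀ i, i₀ ≤ i → i ≤ j → ch i ∈ Γ.net (n + i) ∧ Γ.terr (n + i) (ch i) ⊆ Γ.terr n y ∧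
        κ * osc u (Γ.cell n y) ≤ osc u (Γ.cell (n + i) (ch i))) ∧
      ∀ i i', i₀ ≤ i → i < i' → i' ≤ j →
        Disjoint (Γ.terr (n + i) (ch i)) (Γ.terr (n + i') (ch i')) := by
  have hL := Γ.L_pos
  obtain ⟨N₀, hN₀⟩ := Γ.sphere_cover (3 * (2 * Γ.L + 2))
  obtain ⟨i₀, hi₀⟩ : ∃ i₀, 4 * (2 * Γ.L + 2) * sc i₀ ≤ 1 := by
    have t1 : Tendsto (fun n => 4 * (2 * Γ.L + 2) * sc n) atTop (𝓝 0) := by
      simpa using tendsto_sc.const_mul (4 * (2 * Γ.L + 2))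
    exact (t1.eventually (ge_mem_nhds one_pos)).exists
  have hN : (0 : ℝ) ≤ N₀ := Nat.cast_nonneg _
  refine ⟨i₀, 1 / 5 / (N₀ + 1), by positivity, by rw [div_le_one (by positivity)]; linarith,
    fun j n u W y hj _ hf hW hm hg => ?_⟩
  obtain ⟨x', -, ⟨z, hz1, hz2⟩, hx'⟩ : ∃ x' ∈ Γ.net (n + j),
      (Γ.cell (n + j) x' ∩ Γ.cell n y).Nonempty ∧
      osc u (Γ.cell n y) / 5 ≤ osc u (Γ.cell (n + j) x') := by
    by_contra hc
    push Not at hc
    exact hg ⟨hm, hc⟩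
  have hsn := sc_pos n
  have hxy : dist x' y < 2 * Γ.L * sc n := by
    have h1 : dist z x' < Γ.L * sc (n + j) := Γ.sup _ _ hz1
    have h2 : dist z y < Γ.L * sc n := Γ.sup _ _ hz2
    have h3 := mul_le_mul_of_nonneg_left (sc_anti (m := n) (n := n + j) (by omega)) hL.le
    linarith [dist_triangle_left x' y z]
  have hball : ∀ i, i₀ ≤ i → ball x' (4 * (2 * Γ.L + 2) * sc (n + i)) ⊆ Γ.terr n y :=
    fun i hi p hp => by
      have h1 := mul_le_mul_of_nonneg_left (sc_anti (m := n + i₀) (n := n + i) (by omega))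
        (by positivity : 0 ≤ 4 * (2 * Γ.L + 2))
      rw [sc_add n i₀] at h1
      have h2 := mul_le_mul_of_nonneg_left hi₀ hsn.le
      rw [mem_ball] at hp
      exact mem_ball.2 (by linarith [dist_triangle p x' y])
  have hann : ∀ i a, |dist a x' - 3 * (2 * Γ.L + 2) * sc (n + i)| < sc (n + i) →
      ∀ p ∈ Γ.terr (n + i) a, 2 * (2 * Γ.L + 2) * sc (n + i) < dist p x' ∧
        dist p x' < 4 * (2 * Γ.L + 2) * sc (n + i) := fun i a ha p hp => by
    have h1 : dist p a < (2 * Γ.L + 1) * sc (n + i) := hp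
    have h2 := abs_lt.1 ha
    exact ⟨by linarith [h2.1, dist_triangle_left a x' p], by linarith [h2.2, dist_triangle p a x']⟩
  have hex : ∀ i, i₀ ≤ i → i ≤ j → ∃ a ∈ Γ.net (n + i),
      |dist a x' - 3 * (2 * Γ.L + 2) * sc (n + i)| < sc (n + i) ∧
      1 / 5 / (N₀ + 1) * osc u (Γ.cell n y) ≤ osc u (Γ.cell (n + i) a) := fun i h1 h2 => by
    have hs := sc_pos (n + i)
    obtain ⟨T, hT1, hT2, hT3⟩ := hN₀ (n + i) x' _ le_rfl
    have h3 := hf (Γ.cell (n + j) x') x' (3 * (2 * Γ.L + 2) * sc (n + i)) (n + i) T (Γ.conn _ _)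
      ((Γ.sup _ _).trans (ball_subset_ball (by
        have := mul_le_mul_of_nonneg_left (sc_anti (m := n + i) (n := n + j) (by omega)) hL.le
        nlinarith)))
      (((ball_subset_ball (by nlinarith)).trans (hball i h1)).trans hW)
      (fun a ha p hp => hW (hball i h1
        (hann i a (hT2 a ha).2 p (Γ.cell_subset_terr _ _ hp)).2)) hT3
    obtain ⟨a, ha, ha'⟩ := exists_ge_avg T _ (by positivity) hT1 (hx'.trans h3)
    exact ⟨a, (hT2 a ha).1, (hT2 a ha).2, le_trans (le_of_eq (by ring)) ha'⟩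
  have : Nonempty Z := ⟨y⟩
  choose! ch h1 h2 h3 using hex
  refine ⟨ch, fun i hi hi' => ⟨h1 i hi hi', fun p hp => hball i hi (hann i _ (h2 i hi hi') p hp).2,
    h3 i hi hi'⟩, fun i i' hi hii hi' => disjoint_left.2 fun p hp hp' => ?_⟩
  have a1 := (hann i _ (h2 i hi (by omega)) p hp).1
  have a2 := (hann i' _ (h2 i' (by omega) hi') p hp').2
  have a3 := sc_anti (m := n + i + 1) (n := n + i') (by omega)
  rw [sc_succ] at a3
  have a4 := mul_le_mul_of_nonneg_left a3 (by positivity : 0 ≤ 4 * (2 * Γ.L + 2))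
  linarith

theorem start {u : Z → ℝ} {x₀ : Z} {r₀ : ℝ} (hr : 0 < r₀)
    (hb : Bornology.IsBounded (u '' ball x₀ r₀)) (hf : FlowOn Γ u (ball x₀ r₀)) (hn : NLC u x₀)
    (n₁ M : ℕ) : ∃ (n : ℕ) (T : Finset Z), n₁ ≤ n ∧ M ≤ T.card ∧
      (∀ y ∈ T, y ∈ Γ.net n ∧ Γ.terr n y ⊆ ball x₀ r₀ ∧ 0 < osc u (Γ.cell n y)) ∧
      ∀ y ∈ T, ∀ y' ∈ T, y ≠ y' → Disjoint (Γ.terr n y) (Γ.terr n y') := by
  classical
  have hL := Γ.L_pos
  set d := r₀ / 4 / (M + 1) with hd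
  have hd0 : 0 < d := by positivity
  have hdM : (M + 1) * d = r₀ / 4 := by rw [hd]; field_simp
  obtain ⟨n, hn1, hn2⟩ : ∃ n, n₁ ≤ n ∧ (2 * Γ.L + 2) * sc n ≤ d / 2 := by
    have t1 : Tendsto (fun n => (2 * Γ.L + 2) * sc n) atTop (𝓝 0) := by
      simpa using tendsto_sc.const_mul (2 * Γ.L + 2)
    exact ((eventually_ge_atTop n₁).and (t1.eventually (ge_mem_nhds (by positivity)))).exists
  have hs := sc_pos n
  have hM0 : (0 : ℝ) ≤ M := Nat.cast_nonneg M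
  have hdr : d ≤ r₀ / 4 := by nlinarith
  have hB : Γ.cell n x₀ ⊆ ball x₀ (r₀ / 4) := (Γ.sup _ _).trans (ball_subset_ball (by nlinarith))
  have hpos : 0 < osc u (Γ.cell n x₀) := by
    obtain ⟨z, hz, hz'⟩ := hn (2 * sc n) (by positivity)
    exact lt_of_lt_of_le (abs_pos.2 (sub_ne_zero.2 hz')) (abs_sub_le_osc
      (hb.subset (image_mono (hB.trans (ball_subset_ball (by linarith))))) (Γ.sub n x₀ hz)
      (Γ.mem_cell n x₀))
  have hann : ∀ (i : ℕ) a, |dist a x₀ - (r₀ / 4 + i * d)| < sc n → ∀ p ∈ Γ.terr n a,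
      r₀ / 4 + i * d - d / 2 < dist p x₀ ∧ dist p x₀ < r₀ / 4 + i * d + d / 2 := fun i a ha p hp => by
    have h1 : dist p a < (2 * Γ.L + 1) * sc n := hp
    have h2 := abs_lt.1 ha
    exact ⟨by linarith [h2.1, dist_triangle_left a x₀ p], by linarith [h2.2, dist_triangle p a x₀]⟩
  have hi : ∀ i : ℕ, i < M → 0 ≤ i * d ∧ i * d + d ≤ r₀ / 4 := fun i hi => by
    have : (i : ℝ) ≤ M := by exact_mod_cast hi.le
    exact ⟨by positivity, by nlinarith⟩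
  have hex : ∀ i : ℕ, i < M → ∃ a ∈ Γ.net n, |dist a x₀ - (r₀ / 4 + i * d)| < sc n ∧
      0 < osc u (Γ.cell n a) := fun i him => by
    obtain ⟨N, hN⟩ := Γ.sphere_cover ((r₀ / 4 + i * d) / sc n)
    obtain ⟨T, hT1, hT2, hT3⟩ := hN n x₀ (r₀ / 4 + i * d) (by rw [div_mul_cancel₀ _ hs.ne'])
    obtain ⟨e1, e2⟩ := hi i him
    have h3 := hf (Γ.cell n x₀) x₀ (r₀ / 4 + i * d) n T (Γ.conn _ _)
      (hB.trans (ball_subset_ball (by linarith))) (ball_subset_ball (by linarith))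
      (fun a ha p hp => mem_ball.2 (by
        linarith [(hann i a (hT2 a ha).2 p (Γ.cell_subset_terr _ _ hp)).2])) hT3
    obtain ⟨a, ha, ha'⟩ := exists_ge_avg T _ hpos hT1 h3
    exact ⟨a, (hT2 a ha).1, (hT2 a ha).2, lt_of_lt_of_le (by positivity) ha'⟩
  have : Nonempty Z := ⟨x₀⟩
  choose! a h1 h2 h3 using hex
  have hdis : ∀ i < M, ∀ i' < M, i ≠ i' → Disjoint (Γ.terr n (a i)) (Γ.terr n (a i')) := by
    have key : ∀ i < M, ∀ i' < M, i < i' → Disjoint (Γ.terr n (a i)) (Γ.terr n (a i')) :=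
      fun i hi i' hi' hlt => disjoint_left.2 fun p hp hp' => by
        have a1 := (hann i _ (h2 i hi) p hp).2
        have a2 := (hann i' _ (h2 i' hi') p hp').1
        have a3 : (i : ℝ) + 1 ≤ i' := by exact_mod_cast hlt
        nlinarith
    intro i hi i' hi' hne
    rcases lt_or_gt_of_ne hne with h | h
    · exact key i hi i' hi' h
    · exact (key i' hi' i hi h).symm
  refine ⟨n, (Finset.range M).image a, hn1, ?_, fun y hy => ?_, fun y hy y' hy' hne => ?_⟩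
  · rw [Finset.card_image_of_injOn, Finset.card_range]
    intro i hi i' hi' e
    by_contra hne
    have := hdis i (by simpa using hi) i' (by simpa using hi') hne
    rw [e] at this
    exact disjoint_left.1 this (Γ.cell_subset_terr _ _ (Γ.mem_cell _ _))
      (Γ.cell_subset_terr _ _ (Γ.mem_cell _ _))
  · obtain ⟨i, hi', rfl⟩ := Finset.mem_image.1 hy
    have him := Finset.mem_range.1 hi'
    exact ⟨h1 i him, fun p hp => mem_ball.2 (by
      linarith [(hann i _ (h2 i him) p hp).2, (hi i him).2]), h3 i him⟩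
  · obtain ⟨i, hi', rfl⟩ := Finset.mem_image.1 hy
    obtain ⟨i', hi'', rfl⟩ := Finset.mem_image.1 hy'
    exact hdis i (Finset.mem_range.1 hi') i' (Finset.mem_range.1 hi'') fun e => hne (by rw [e])

theorem growth : ∃ j : ℕ, ∀ (u : Z → ℝ) (x₀ : Z) (r₀ C : ℝ) (n₁ : ℕ), 0 < r₀ →
    Bornology.IsBounded (u '' ball x₀ r₀) → FlowOn Γ u (ball x₀ r₀) → NLC u x₀ →
    (∀ n, n₁ ≤ n → Γ.En n u (ball x₀ r₀) ≤ C) → ∀ N₁ : ℕ, ∃ (n : ℕ) (T : Finset Z),
      N₁ < T.card ∧ ∀ y ∈ T, y ∈ Γ.net n ∧ Γ.terr n y ⊆ ball x₀ r₀ ∧ Good Γ u j n y := by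
  classical
  obtain ⟨i₀, κ, hκ, hκ1, hch⟩ := children Γ
  obtain ⟨K, hK⟩ := exists_nat_ge (4 / κ ^ 2)
  refine ⟨i₀ + K, fun u x₀ r₀ C n₁ hr hb hf hn hE N₁ => ?_⟩
  by_contra hcon
  push Not at hcon
  have hinj : ∀ (n : ℕ) (S : Finset (ℕ × Z)), (∀ p ∈ S, p.1 = n) → InjOn Prod.snd (S : Set (ℕ × Z)) :=
    fun n S hS p hp q hq e => Prod.ext ((hS p hp).trans (hS q hq).symm) e
  refine tree (N := ℕ × Z) Prod.fst (fun p => Γ.terr p.1 p.2) (fun p => osc u (Γ.cell p.1 p.2))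
    (fun p => p.2 ∈ Γ.net p.1 ∧ Γ.terr p.1 p.2 ⊆ ball x₀ r₀ ∧ 0 < osc u (Γ.cell p.1 p.2))
    (fun p => Good Γ u (i₀ + K) p.1 p.2) K (i₀ + K) N₁ n₁ κ C hκ hκ1
    (by rwa [div_le_iff₀ (by positivity)] at hK)
    (fun p hp => ⟨hp.2.2, _, Γ.cell_subset_terr _ _ (Γ.mem_cell _ _)⟩) (fun p hp hg => ?_)
    (fun n hn S hS => ?_) (fun n S hS => ?_) fun M => ?_
  · obtain ⟨ch, h1, h2⟩ := hch (i₀ + K) p.1 u _ p.2 (by omega) hb hf hp.2.1 hp.2.2 hg
    refine ⟨(Finset.Icc i₀ (i₀ + K)).image fun i => (p.1 + i, ch i), ?_, fun q hq => ?_,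
      fun q hq q' hq' hne => ?_⟩
    · rw [Finset.card_image_of_injective _ fun i i' e => by simpa using congrArg Prod.fst e,
        Nat.card_Icc]
      omega
    · obtain ⟨i, hi, rfl⟩ := Finset.mem_image.1 hq
      obtain ⟨a1, a2⟩ := Finset.mem_Icc.1 hi
      obtain ⟨b1, b2, b3⟩ := h1 i a1 a2
      exact ⟨⟨b1, b2.trans hp.2.1, lt_of_lt_of_le (mul_pos hκ hp.2.2) b3⟩, by simp, by simpa using a2,
        b3, b2⟩
    · obtain ⟨i, hi, rfl⟩ := Finset.mem_image.1 hq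
      obtain ⟨i', hi', rfl⟩ := Finset.mem_image.1 hq'
      obtain ⟨a1, a2⟩ := Finset.mem_Icc.1 hi
      obtain ⟨b1, b2⟩ := Finset.mem_Icc.1 hi'
      rcases lt_trichotomy i i' with h | h | h
      · exact h2 i i' a1 h b2
      · exact absurd (by rw [h]) hne
      · exact (h2 i' i b1 h a2).symm
  · have h1 := Γ.sum_le_En (n := n) (v := u) (W := ball x₀ r₀) (S.image Prod.snd) fun x hx => by
      obtain ⟨p, hp, rfl⟩ := Finset.mem_image.1 hx
      obtain ⟨⟨a1, a2, -⟩, rfl⟩ := hS p hp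
      exact ⟨a1, (Γ.cell_subset_terr _ _).trans a2⟩
    rw [Finset.sum_image (hinj n S fun p hp => (hS p hp).2)] at h1
    refine le_trans (le_of_eq (Finset.sum_congr rfl fun p hp => ?_)) (h1.trans (hE n hn))
    rw [(hS p hp).2]
  · by_contra hc
    obtain ⟨y, hy, hy'⟩ := hcon n (S.image Prod.snd) (by
      rw [Finset.card_image_of_injOn (hinj n S fun p hp => (hS p hp).2.2)]; omega)
    obtain ⟨p, hp, rfl⟩ := Finset.mem_image.1 hy
    obtain ⟨⟨a1, a2, -⟩, a3, rfl⟩ := hS p hp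
    exact hy' a1 a2 a3
  · obtain ⟨n, T, h1, h2, h3, h4⟩ := start Γ hr hb hf hn n₁ M
    refine ⟨n, T.image fun y => (n, y), h1, ?_, fun p hp => ?_, fun q hq q' hq' hne => ?_⟩
    · rwa [Finset.card_image_of_injective _ (Prod.mk_right_injective n)]
    · obtain ⟨y, hy, rfl⟩ := Finset.mem_image.1 hp
      exact ⟨h3 y hy, rfl⟩
    · obtain ⟨y, hy, rfl⟩ := Finset.mem_image.1 hq
      obtain ⟨y', hy', rfl⟩ := Finset.mem_image.1 hq'
      exact h4 y hy y' hy' fun e => hne (by rw [e])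

end Crest.Agent.R193
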