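import Crest.Agent.R193.D.Limit

/-!
# R193/D/Key: energy duality

`key_rect` (one index `l`, pure topology): `e` a homeomorphism.  For `s ∈ (s₀, s₁)` the set `B` is cut by `s`
(`v a ≤ s₀`, `s₁ ≤ v a'`), `RR.exists_conn` gives `K ⊆ frontier {s < v}` meeting `B` and `Uᶜ`; `K` misses the open set `O₁` on which
`v ∉ (s₀, s₁)`-range, i.e. `v ≤ s₀` on `O₁` or `s₁ ≤ v` on `O₁` (`cut_of_frontier`).  `e '' K` is preconnected, meets `e '' B` and
`e '' Uᶜ ⊆ O₂`, so it is cut by every `t ∈ (t₀, t₁)` for `v` (or for `-v`: do both orders), hence contains a point `z` of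
`frontier {t < v}`, `z ∉ O₂`, `z ∉ e '' O₁`.  The cell containing `z` is cut by `s` for `v ∘ e.symm` and by `t` for `v`;
`cut_sum₂`, Cauchy–Schwarz (`Finset.sum_mul_sq_le_sq_mul_sq`).

`key`: `4η = |u (g x) - u (g b)| > 0`; `O₂ = ball (g b) ρ'`, `B = Γ.cell n x` small with `g B ⊆ ball (g x) ρ'`; `u x₁ < s₀' < s₁' < u x₂` in `B` (`NLC`, either
order); `O₁ = ball (g⁻¹ b) ρ''` on which `v l` is within `(s₁' - s₀')/4` of `u (g⁻¹ b)`; `(s₀, s₁) ⊆ (s₀', s₁')` of length `≥ (s₁'-s₀')/4` avoiding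
that range.  `W = (ball b ρ₃)ᶜ ∩ (ball (g b) (ρ'/2))ᶜ` where `ball b (2ρ₃) ⊆ g O₁`.  `En (k l) (v l) W → 0` by `fine`;
`En (k l) (v l ∘ g⁻¹) W → 0` by `En_comp` (`a = 0`, `HA.bilip`) and `fine`.
-/

set_option autoImplicit false
open Set Metric Filter Topology MeasureTheory

namespace Crest.Agent.R193

variable {G : Type} [Group G] {Z : Type} [MetricSpace Z] [CompactSpace Z] [MulAction G Z]
  {Γ : Cov Z} {v : ℕ → Z → ℝ} {U : ℕ → Set Z} {k : ℕ → ℕ} {b : Z} {u : Z → ℝ}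

omit [CompactSpace Z] in
theorem key_rect (Γ : Cov Z) (e : Z ≃ₜ Z) {f : Z → ℝ} {U B O₁ O₂ W : Set Z} {n : ℕ}
    {s₀ s₁ t₀ t₁ : ℝ} (hf : Bdd f) (hU : RR f U) (hB : IsPreconnected B) (hBU : B ⊆ U)
    (hs : s₀ ≤ s₁) (ht : t₀ ≤ t₁) (ha : ∃ a ∈ B, f a ≤ s₀) (ha' : ∃ a ∈ B, s₁ ≤ f a)
    (hO₁ : IsOpen O₁) (h₁ : (∀ z ∈ O₁, f z ≤ s₀) ∨ ∀ z ∈ O₁, s₁ ≤ f z)
    (hO₂ : IsOpen O₂) (hUO : ∀ z, z ∉ U → e z ∈ O₂)
    (h₂ : ((∀ z ∈ B, f (e z) ≤ t₀) ∧ ∀ z ∈ O₂, t₁ ≤ f z) ∨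
      ((∀ z ∈ B, t₁ ≤ f (e z)) ∧ ∀ z ∈ O₂, f z ≤ t₀))
    (hW : ∀ z, z ∉ O₂ → e.symm z ∉ O₁ → ball z ((Γ.L + 1) * sc n) ⊆ W) :
    ((s₁ - s₀) * (t₁ - t₀)) ^ 2 ≤ Γ.En n (fun z => f (e.symm z)) W * Γ.En n f W := by
  classical
  have hf' : Bdd (fun z => f (e.symm z)) := by
    obtain ⟨M, hM⟩ := hf; exact ⟨M, fun z => hM _⟩
  have h := cut_sum₂ ((Γ.net n).filter (fun x => Γ.cell n x ⊆ W)) (c := Γ.cell n)
    (v := fun z => f (e.symm z)) (v' := f) (fun i _ => hf'.isBounded _)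
    (fun i _ => hf.isBounded _) hs ht ?_
  · have h0 : 0 ≤ (s₁ - s₀) * (t₁ - t₀) := mul_nonneg (by linarith) (by linarith)
    refine (pow_le_pow_left₀ h0 h 2).trans ((Finset.sum_mul_sq_le_sq_mul_sq _ _ _).trans_eq ?_)
    unfold Cov.En
    congr!
  · intro s hs' t ht'
    obtain ⟨a, haB, ha⟩ := ha
    obtain ⟨a', haB', ha'⟩ := ha'
    obtain ⟨K, hK, hKf, ⟨z₁, hz₁K, hz₁B⟩, z₂, hz₂K, hz₂U⟩ := hU.exists_conn hB hBU (s := s)
      ⟨⟨a, haB, by linarith [hs'.1]⟩, a', haB', by linarith [hs'.2]⟩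
    have hKO : ∀ z ∈ K, z ∉ O₁ := fun z hz hzO => by
      obtain ⟨⟨p, hp, hp'⟩, q, hq, hq'⟩ := cut_of_frontier (v := f) (s := s) hO₁ ⟨z, hzO, hKf hz⟩
      rcases h₁ with h₁ | h₁
      · linarith [h₁ q hq, hs'.1]
      · linarith [h₁ p hp, hs'.2]
    have hK' : IsPreconnected (e '' K) := hK.image _ e.continuous.continuousOn
    have hcut : Cut f (e '' K) t := by
      rcases h₂ with h₂ | h₂
      · exact ⟨⟨e z₁, mem_image_of_mem _ hz₁K, by linarith [h₂.1 z₁ hz₁B, ht'.1]⟩,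
          e z₂, mem_image_of_mem _ hz₂K, by linarith [h₂.2 _ (hUO z₂ hz₂U), ht'.2]⟩
      · exact ⟨⟨e z₂, mem_image_of_mem _ hz₂K, by linarith [h₂.2 _ (hUO z₂ hz₂U), ht'.1]⟩,
          e z₁, mem_image_of_mem _ hz₁K, by linarith [h₂.1 z₁ hz₁B, ht'.2]⟩
    obtain ⟨_, ⟨y, hyK, rfl⟩, hyf⟩ := hcut.inter_frontier hK'
    have hyO : e y ∉ O₂ := fun hyO => by
      obtain ⟨⟨p, hp, hp'⟩, q, hq, hq'⟩ := cut_of_frontier (v := f) (s := t) hO₂ ⟨_, hyO, hyf⟩
      rcases h₂ with h₂ | h₂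
      · linarith [h₂.2 p hp, ht'.2]
      · linarith [h₂.2 q hq, ht'.1]
    obtain ⟨x, hx, -, hx1, hx2⟩ := Γ.exists_cell n (e y)
    have hyc : e y ∈ Γ.cell n x := hx1 (mem_ball_self (sc_pos n))
    refine ⟨x, Finset.mem_filter.2 ⟨hx, hx2.trans (hW _ hyO ?_)⟩,
      cut_of_frontier (Γ.isOpen n x) ⟨e y, hyc, ?_⟩, cut_of_frontier (Γ.isOpen n x) ⟨e y, hyc, hyf⟩⟩
    · rw [e.symm_apply_apply]; exact hKO y hyK
    · have : {z | s < f (e.symm z)} = e.symm ⁻¹' {z | s < f z} := rfl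
      rw [this, ← e.symm.preimage_frontier, mem_preimage, e.symm_apply_apply]
      exact hKf hyK

omit [CompactSpace Z] in
theorem Lim.near (hu : Lim v b u) {p : Z} (hp : p ≠ b) {ε : ℝ} (hε : 0 < ε) :
    ∃ r : ℝ, 0 < r ∧ ∀ᶠ l in 𝒰, ∀ z ∈ ball p r, |v l z - u p| ≤ ε := by
  have hc : ContinuousAt u p := hu.cont.continuousAt (isOpen_compl_singleton.mem_nhds hp)
  obtain ⟨δ, hδ, hd⟩ := Metric.continuousAt_iff.1 hc (ε / 2) (by positivity)
  have hpb : 0 < dist p b := dist_pos.2 hp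
  refine ⟨min δ (dist p b / 2), by positivity, ?_⟩
  filter_upwards [hu.unif (dist p b / 2) (ε / 2) (by positivity) (by positivity)] with l hl z hz
  rw [mem_ball, lt_min_iff] at hz
  have h1 := hd hz.1
  have h2 := dist_triangle p z b
  rw [dist_comm p z] at h2
  have h3 := hl z (by linarith [hz.2])
  rw [Real.dist_eq] at h1
  calc |v l z - u p| = |(v l z - u z) + (u z - u p)| := by ring_nf
    _ ≤ _ := (abs_add_le _ _).trans (by linarith)

theorem key (H : HA G Z) (h : Pic Γ v U k b) (hu : Lim v b u) {g : G} (hg : g • b ≠ b) {x : Z}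
    (hx : x ≠ b) (hgx : g • x ≠ b) (hn : NLC u x) : u (g • x) = u (g • b) := by
  by_contra hne
  have _ := H.ccs
  obtain ⟨K, hK1, hK⟩ := H.bilip (H.len g)
  obtain ⟨hg1, hg2⟩ := hK g le_rfl
  have hK0 : 0 < K := by linarith
  have hi1 : ∀ a a' : Z, dist (g⁻¹ • a) (g⁻¹ • a') ≤ K * dist a a' := fun a a' => by
    simpa using hg2 (g⁻¹ • a) (g⁻¹ • a')
  have hi2 : ∀ a a' : Z, dist a a' ≤ K * dist (g⁻¹ • a) (g⁻¹ • a') := fun a a' => by
    simpa using hg1 (g⁻¹ • a) (g⁻¹ • a')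
  have hgi : g⁻¹ • b ≠ b := fun e => hg (by rw [← e, smul_inv_smul]; exact e.symm ▸ rfl)
  set η := |u (g • x) - u (g • b)| / 4 with hη
  have hη0 : 0 < η := by have := abs_pos.2 (sub_ne_zero.2 hne); positivity
  obtain ⟨r₁, hr₁, h₁⟩ := hu.near hgx hη0
  obtain ⟨r₂, hr₂, h₂⟩ := hu.near hg hη0
  -- a small cell around `x`
  have hxb : 0 < dist x b := dist_pos.2 hx
  obtain ⟨n, hn1, hn2⟩ : ∃ n, Γ.L * sc n ≤ r₁ / K ∧ Γ.L * sc n ≤ dist x b / 2 := by
    have ht : Tendsto (fun n => Γ.L * sc n) atTop (𝓝 0) := by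
      simpa using tendsto_sc.const_mul Γ.L
    exact ((ht.eventually (ge_mem_nhds (by positivity : 0 < r₁ / K))).and
      (ht.eventually (ge_mem_nhds (by positivity : 0 < dist x b / 2)))).exists
  set B := Γ.cell n x with hB
  have hBx : ∀ z ∈ B, dist z x < Γ.L * sc n := fun z hz => Γ.sup n x hz
  have hBb : ∀ z ∈ B, dist x b / 2 ≤ dist z b := fun z hz => by
    have := dist_triangle x z b
    rw [dist_comm x z] at this
    linarith [hBx z hz]
  have hBg : ∀ z ∈ B, g • z ∈ ball (g • x) r₁ := fun z hz => by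
    have h1 := hg1 z x
    have h2 : K * dist z x < K * (r₁ / K) := mul_lt_mul_of_pos_left ((hBx z hz).trans_le hn1) hK0
    rw [mul_div_cancel₀ _ hK0.ne'] at h2
    exact mem_ball.2 (h1.trans_lt h2)
  obtain ⟨x₁, hx₁, x₂, hx₂, hlt⟩ : ∃ x₁ ∈ B, ∃ x₂ ∈ B, u x₁ < u x₂ := by
    obtain ⟨z, hz, hz'⟩ := hn (2 * sc n) (by have := sc_pos n; positivity)
    rcases lt_or_gt_of_ne hz' with h' | h'
    · exact ⟨z, Γ.sub n x hz, x, Γ.mem_cell n x, h'⟩
    · exact ⟨x, Γ.mem_cell n x, z, Γ.sub n x hz, h'⟩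
  set lam := (u x₂ - u x₁) / 10 with hlam
  have hlam0 : 0 < lam := by rw [hlam]; linarith
  obtain ⟨r₃, hr₃, h₃⟩ := hu.near hgi hlam0
  -- the interval of levels
  obtain ⟨s₀, hs1, hs2, hs3⟩ : ∃ s₀, u x₁ + lam ≤ s₀ ∧ s₀ + lam ≤ u x₂ - lam ∧
      (u (g⁻¹ • b) + lam ≤ s₀ ∨ s₀ + lam ≤ u (g⁻¹ • b) - lam) := by
    by_cases hc : u (g⁻¹ • b) ≤ u x₁ + 5 * lam
    · exact ⟨u x₁ + 6 * lam, by linarith, by linarith, Or.inl (by linarith)⟩
    · exact ⟨u x₁ + lam, by linarith, by linarith, Or.inr (by linarith)⟩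
  set t₀ := min (u (g • x)) (u (g • b)) + η with ht₀
  set W := (ball b (r₃ / K / 2))ᶜ ∩ (ball (g • b) (r₂ / 2))ᶜ with hW
  obtain ⟨N, hN⟩ := Γ.En_comp K
  have hsck : Tendsto (fun l => (Γ.L + 1) * sc (k l)) 𝒰 (𝓝 0) := by
    simpa using (tendsto_sc.comp h.ktop).const_mul (Γ.L + 1)
  have hle : ∀ᶠ l in 𝒰, (lam * (2 * η)) ^ 2 ≤
      (N * Γ.En (k l) (v l) (ball b (r₂ / K / 4))ᶜ) * Γ.En (k l) (v l) (ball b (r₃ / K / 2))ᶜ := by
    filter_upwards [h₁, h₂, h₃, h.rr, h.dom (dist x b / 2) (by positivity),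
      h.dom (r₂ / K) (by positivity), hu.unif (dist x b / 2) lam (by positivity) hlam0,
      hsck.eventually (ge_mem_nhds (by positivity : 0 < r₃ / K / 2)),
      hsck.eventually (ge_mem_nhds (by positivity : 0 < r₂ / 2)),
      hsck.eventually (ge_mem_nhds (by positivity : 0 < r₂ / K / 4))]
      with l e₁ e₂ e₃ err ed1 ed2 eu es1 es2 es3
    have key := key_rect Γ (Homeomorph.smul g) (f := v l) (U := U l) (B := B)
      (O₁ := ball (g⁻¹ • b) r₃) (O₂ := ball (g • b) r₂) (W := W) (n := k l) (s₀ := s₀)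
      (s₁ := s₀ + lam) (t₀ := t₀) (t₁ := t₀ + 2 * η) (h.bdd l) err (Γ.conn n x)
      (fun z hz => ed1 (by simpa using hBb z hz)) (by linarith) (by linarith)
      ⟨x₁, hx₁, by linarith [(abs_le.1 (eu x₁ (hBb x₁ hx₁))).2]⟩
      ⟨x₂, hx₂, by linarith [(abs_le.1 (eu x₂ (hBb x₂ hx₂))).1]⟩ isOpen_ball ?_ isOpen_ball ?_ ?_ ?_
    · rw [add_sub_cancel_left, add_sub_cancel_left] at key
      refine key.trans (mul_le_mul ?_ (Γ.En_mono _ _ inter_subset_left) (Γ.En_nonneg _ _ _)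
        (mul_nonneg (Nat.cast_nonneg _) (Γ.En_nonneg _ _ _)))
      have := hN (k l) 0 (v l) (fun y => g⁻¹ • y) W (ball b (r₂ / K / 4))ᶜ (h.bdd l)
        (continuous_const_smul _).continuousOn
        (fun y _ z _ => by rw [sc_zero, mul_one]; exact hi1 y z)
        (fun y _ z _ => by rw [sc_zero, one_mul]; exact hi2 y z) (fun y hy z hz hz' => ?_)
      · simpa using this
      · have h1 : r₂ / 2 ≤ dist y (g • b) := by simpa using hy.2
        have h2 := hi2 y (g • b)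
        rw [inv_smul_smul] at h2
        have h3 : r₂ / K / 2 ≤ dist (g⁻¹ • y) b := by
          rw [div_div, div_le_iff₀ (by positivity)]; nlinarith
        have h4 := dist_triangle (g⁻¹ • y) z b
        rw [mem_ball, add_zero] at hz
        rw [mem_ball] at hz'
        rw [dist_comm (g⁻¹ • y) z] at h4
        linarith
    · rcases hs3 with hs3 | hs3
      · exact Or.inl fun z hz => by linarith [(abs_le.1 (e₃ z hz)).2]
      · exact Or.inr fun z hz => by linarith [(abs_le.1 (e₃ z hz)).1]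
    · intro z hz
      have h1 : dist z b < r₂ / K := by
        by_contra hc
        exact hz (ed2 (by simpa using hc))
      have h2 : K * dist z b < K * (r₂ / K) := mul_lt_mul_of_pos_left h1 hK0
      rw [mul_div_cancel₀ _ hK0.ne'] at h2
      exact mem_ball.2 ((hg1 z b).trans_lt h2)
    · rcases le_total (u (g • x)) (u (g • b)) with hc | hc
      · have e1 : t₀ = u (g • x) + η := by rw [ht₀, min_eq_left hc]
        have e2 : 4 * η = u (g • b) - u (g • x) := by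
          rw [hη, abs_sub_comm, abs_of_nonneg (by linarith)]; ring
        exact Or.inl ⟨fun z hz => by
            have := (abs_le.1 (e₁ _ (hBg z hz))).2
            change v l (g • z) ≤ _
            linarith,
          fun z hz => by linarith [(abs_le.1 (e₂ z hz)).1]⟩
      · have e1 : t₀ = u (g • b) + η := by rw [ht₀, min_eq_right hc]
        have e2 : 4 * η = u (g • x) - u (g • b) := by
          rw [hη, abs_of_nonneg (by linarith)]; ring
        exact Or.inr ⟨fun z hz => by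
            have := (abs_le.1 (e₁ _ (hBg z hz))).1
            change _ ≤ v l (g • z)
            linarith,
          fun z hz => by linarith [(abs_le.1 (e₂ z hz)).2]⟩
    · intro z hz1 hz2 y hy
      have h1 : r₂ ≤ dist z (g • b) := by simpa using hz1
      have h2 : r₃ ≤ dist (g⁻¹ • z) (g⁻¹ • b) := by
        have : g⁻¹ • z ∉ ball (g⁻¹ • b) r₃ := hz2
        simpa using this
      have h3 : r₃ / K ≤ dist z b := by
        rw [div_le_iff₀ hK0]; linarith [hi1 z b]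
      have h4 := dist_triangle z y b
      have h5 := dist_triangle z y (g • b)
      rw [mem_ball, dist_comm] at hy
      constructor
      · simp only [mem_compl_iff, mem_ball, not_lt]; linarith
      · simp only [mem_compl_iff, mem_ball, not_lt]; linarith
  have hlim := ((h.fine (r₂ / K / 4) (by positivity)).const_mul (N : ℝ)).mul
    (h.fine (r₃ / K / 2) (by positivity))
  have := ge_of_tendsto hlim hle
  have h0 : 0 < (lam * (2 * η)) ^ 2 := by positivity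
  simp only [mul_zero] at this
  linarith

end Crest.Agent.R193
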