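import Crest.Agent.R193.D.Defs

/-!
# R193/D/Limit: the limit of a picture

* `Pic.exists_lim`: the set of `x ≠ b` where `v l x` is eventually bounded is relatively clopen in `{b}ᶜ` (`nop` with `ε = 1`),
  contains the base point, and `{b}ᶜ` is preconnected (`sph_compl_finite`).  `u x = lim_𝒰 v l x` (bounded sequence,
  ultrafilter; `u b = 0`).  `nop` gives `|u z - u x| ≤ ε` and `|v l z - u z| ≤ 3ε` on `ball x r`; compactness of
  `{ρ ≤ dist z b}` gives `unif`.  `ncst` and `unif` (`ε₀/4`) give two points with different values of `u`; a function that is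
  locally constant at every point of the preconnected set `{b}ᶜ` is constant there.
* `Lim.flowOn`: `RR.flow` for `v l` (`dom`), and `osc_le_add` twice with `ε → 0`.
* `Lim.energy`: `osc_le_add`/`osc_le_of_tendsto`, finitely many cells.
-/

set_option autoImplicit false
open Set Metric Filter Topology MeasureTheory

namespace Crest.Agent.R193

variable {Z : Type} [MetricSpace Z] [CompactSpace Z] {Γ : Cov Z} {v : ℕ → Z → ℝ} {U : ℕ → Set Z}
  {k : ℕ → ℕ} {b : Z} {u : Z → ℝ}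

theorem exists_tendsto_of_bdd {f : ℕ → ℝ} {M : ℝ} (h : ∀ᶠ l in 𝒰, |f l| ≤ M) :
    ∃ a, Tendsto f 𝒰 (𝓝 a) := by
  obtain ⟨a, -, ha⟩ := (isCompact_Icc (a := -M) (b := M)).ultrafilter_le_nhds
    (Ultrafilter.map f (hyperfilter ℕ)) (le_principal_iff.2 (h.mono fun l hl => abs_le.1 hl))
  exact ⟨a, ha⟩

theorem Pic.exists_lim (hs : Nonempty (Z ≃ₜ OnePoint ℂ)) (h : Pic Γ v U k b) :
    ∃ u : Z → ℝ, Lim v b u ∧ ∃ x₀, x₀ ≠ b ∧ NLC u x₀ := by
  classical
  have hc : IsPreconnected ({b}ᶜ : Set Z) := sph_compl_finite hs (finite_singleton b)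
  have hnop : ∀ p, p ≠ b → ∀ ε : ℝ, 0 < ε → ∃ r : ℝ, 0 < r ∧ ∀ᶠ l in 𝒰,
      ∀ z ∈ ball p r, ∀ z' ∈ ball p r, |v l z - v l z'| ≤ ε := fun p hp ε hε => by
    obtain ⟨r, hr, h1⟩ := h.nop p hp ε hε
    exact ⟨r, hr, h1.mono fun l hl z hz z' hz' =>
      (abs_sub_le_osc ((h.bdd l).isBounded _) hz hz').trans hl⟩
  obtain ⟨x₁, hx₁, hM₁⟩ := h.base
  have hbd : ∀ x, x ≠ b → ∃ M : ℝ, ∀ᶠ l in 𝒰, |v l x| ≤ M := fun x hx => by
    refine hc.induction₂ (fun x y => (∃ M : ℝ, ∀ᶠ l in 𝒰, |v l x| ≤ M) ↔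
      ∃ M : ℝ, ∀ᶠ l in 𝒰, |v l y| ≤ M) (fun p hp => ?_) (fun _ _ _ _ _ _ a b => a.trans b)
      (fun _ _ _ _ a => a.symm) hx₁ hx |>.1 hM₁
    obtain ⟨r, hr, h1⟩ := hnop p hp 1 one_pos
    have key : ∀ z ∈ ball p r, ∀ z' ∈ ball p r, (∃ M : ℝ, ∀ᶠ l in 𝒰, |v l z| ≤ M) →
        ∃ M : ℝ, ∀ᶠ l in 𝒰, |v l z'| ≤ M := fun z hz z' hz' ⟨M, hM⟩ =>
      ⟨M + 1, (h1.and hM).mono fun l hl => by
        have := hl.1 z' hz' z hz
        linarith [abs_sub_abs_le_abs_sub (v l z') (v l z), hl.2]⟩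
    exact mem_nhdsWithin_of_mem_nhds (mem_of_superset (ball_mem_nhds p hr) fun z hz =>
      ⟨key _ (mem_ball_self hr) _ hz, key _ hz _ (mem_ball_self hr)⟩)
  choose! u hu using fun x (hx : x ≠ b) => exists_tendsto_of_bdd (hbd x hx).choose_spec
  have hloc : ∀ p, p ≠ b → ∀ ε : ℝ, 0 < ε → ∃ r : ℝ, 0 < r ∧
      (∀ z ∈ ball p r, |u z - u p| ≤ ε) ∧ ∀ᶠ l in 𝒰, ∀ z ∈ ball p r, |v l z - u z| ≤ 3 * ε :=
    fun p hp ε hε => by
    obtain ⟨r, hr, h1⟩ := hnop p hp ε hε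
    have hpb := dist_pos.2 hp
    have h2 : ∀ z ∈ ball p (min r (dist p b)), |u z - u p| ≤ ε := fun z hz => by
      rw [mem_ball, lt_min_iff] at hz
      have hzb : z ≠ b := fun e => by rw [e, dist_comm] at hz; exact lt_irrefl _ hz.2
      exact le_of_tendsto ((hu z hzb).sub (hu p hp)).abs
        (h1.mono fun l hl => hl z hz.1 p (mem_ball_self hr))
    refine ⟨min r (dist p b), by positivity, h2, ?_⟩
    filter_upwards [h1, Metric.tendsto_nhds.1 (hu p hp) ε hε] with l hl hl' z hz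
    have a1 := abs_le.1 (hl z (ball_subset_ball (min_le_left _ _) hz) p (mem_ball_self hr))
    have a2 := abs_le.1 (h2 z hz)
    rw [Real.dist_eq, abs_lt] at hl'
    exact abs_le.2 ⟨by linarith [a1.1, a2.2, hl'.1], by linarith [a1.2, a2.1, hl'.2]⟩
  have hunif : ∀ ρ ε : ℝ, 0 < ρ → 0 < ε → ∀ᶠ l in 𝒰, ∀ z, ρ ≤ dist z b → |v l z - u z| ≤ ε :=
    fun ρ ε hρ hε => by
    have hK : IsCompact {z : Z | ρ ≤ dist z b} :=
      (isClosed_le continuous_const (continuous_id.dist continuous_const)).isCompact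
    refine hK.induction_on (p := fun S => ∀ᶠ l in 𝒰, ∀ z ∈ S, |v l z - u z| ≤ ε) (by simp)
      (fun S T hST hT => hT.mono fun l hl z hz => hl z (hST hz))
      (fun S T hS hT => (hS.and hT).mono fun l hl z hz => hz.elim (hl.1 z) (hl.2 z)) fun p hp => ?_
    have hpb : p ≠ b := fun e => by
      rw [mem_ofPred_eq, e, dist_self] at hp; linarith
    obtain ⟨r, hr, -, h2⟩ := hloc p hpb (ε / 3) (by positivity)
    exact ⟨ball p r, mem_nhdsWithin_of_mem_nhds (ball_mem_nhds p hr),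
      h2.mono fun l hl z hz => by linarith [hl z hz]⟩
  refine ⟨u, ⟨fun p hp => ContinuousAt.continuousWithinAt (Metric.continuousAt_iff.2 fun ε hε => ?_),
    hunif⟩, ?_⟩
  · obtain ⟨r, hr, h1, -⟩ := hloc p hp (ε / 2) (by positivity)
    exact ⟨r, hr, fun z hz => by rw [Real.dist_eq]; linarith [h1 z hz]⟩
  · by_contra hcon
    push Not at hcon
    obtain ⟨ρ₀, ε₀, hρ, hε, h1⟩ := h.ncst
    obtain ⟨l, ⟨a, a', ha, ha', h2⟩, h3⟩ := (h1.and (hunif ρ₀ (ε₀ / 4) hρ (by positivity))).exists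
    have hne : ∀ z, ρ₀ ≤ dist z b → z ∈ ({b}ᶜ : Set Z) := fun z hz e => by
      rw [mem_singleton_iff.1 e, dist_self] at hz; linarith
    have e : u a = u a' := hc.induction₂ (fun x y => u x = u y) (fun p hp => by
      have := hcon p hp
      simp only [NLC, not_forall, not_exists, not_and, not_not] at this
      obtain ⟨r, hr, h4⟩ := this
      exact mem_nhdsWithin_of_mem_nhds (mem_of_superset (ball_mem_nhds p hr)
        fun z hz => (h4 z hz).symm)) (fun _ _ _ _ _ _ a b => a.trans b)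
      (fun _ _ _ _ a => a.symm) (hne a ha) (hne a' ha')
    have a1 := abs_le.1 (h3 a ha)
    have a2 := abs_le.1 (h3 a' ha')
    have : |v l a - v l a'| ≤ ε₀ / 2 := abs_le.2 ⟨by linarith [a1.1, a2.2], by linarith [a1.2, a2.1]⟩
    linarith

theorem Lim.isBounded (hu : Lim v b u) {ρ : ℝ} (hρ : 0 < ρ) {W : Set Z} (hW : W ⊆ (ball b ρ)ᶜ) :
    Bornology.IsBounded (u '' W) :=
  ((isOpen_ball.isClosed_compl.isCompact.image_of_continuousOn (hu.cont.mono
    (compl_subset_compl.2 (singleton_subset_iff.2 (mem_ball_self hρ))))).isBounded).subset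
    (image_mono hW)

theorem Lim.flowOn (h : Pic Γ v U k b) (hu : Lim v b u) {ρ : ℝ} (hρ : 0 < ρ) {W : Set Z}
    (hW : W ⊆ (ball b ρ)ᶜ) : FlowOn Γ u W := by
  intro B z t n T hB hBt hzW hT hc
  refine le_of_forall_pos_le_add fun δ hδ => ?_
  set ε := δ / (2 * (T.card + 1)) with hε
  have hε0 : 0 < ε := by positivity
  obtain ⟨l, ⟨h1, h2⟩, h3⟩ := ((h.rr.and (h.dom ρ hρ)).and (hu.unif ρ ε hρ hε0)).exists
  have h4 : ∀ y ∈ W, |v l y - u y| ≤ ε := fun y hy => h3 y (by simpa using hW hy)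
  have h5 := h1.flow (h.bdd l) hB hBt (hzW.trans (hW.trans h2)) T (c := Γ.cell n)
    (fun _ _ => Γ.isOpen _ _) hc
  have h6 := osc_le_add (v := u) (v' := v l) (B := B) ((h.bdd l).isBounded _) hε0.le
    fun y hy => by rw [abs_sub_comm]; exact h4 y (hzW (hBt hy))
  have h7 : ∑ a ∈ T, osc (v l) (Γ.cell n a) ≤ ∑ a ∈ T, (osc u (Γ.cell n a) + 2 * ε) :=
    Finset.sum_le_sum fun a ha => osc_le_add (hu.isBounded hρ ((hT a ha).trans hW)) hε0.le
      fun y hy => h4 y (hT a ha hy)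
  rw [Finset.sum_add_distrib, Finset.sum_const, nsmul_eq_mul] at h7
  have h8 : ε * (2 * (T.card + 1)) = δ := by rw [hε]; field_simp
  linarith

theorem Lim.energy (h : Pic Γ v U k b) (hu : Lim v b u) {ρ : ℝ} (hρ : 0 < ρ) :
    ∃ (C : ℝ) (j₀ : ℕ), ∀ j, j₀ ≤ j → Γ.En j u (ball b ρ)ᶜ ≤ C := by
  obtain ⟨C, j₀, hC⟩ := h.ener ρ hρ
  refine ⟨C, j₀, fun j hj => le_of_tendsto ?_ (hC j hj)⟩
  unfold Cov.En
  refine tendsto_finsetSum _ fun x hx => Tendsto.pow (Metric.tendsto_nhds.2 fun ε hε => ?_) 2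
  have hx' : Γ.cell j x ⊆ (ball b ρ)ᶜ := by
    classical exact (Finset.mem_filter.1 hx).2
  filter_upwards [hu.unif ρ (ε / 3) hρ (by positivity)] with l hl
  have h4 : ∀ y ∈ Γ.cell j x, |v l y - u y| ≤ ε / 3 := fun y hy => hl y (by simpa using hx' hy)
  have h5 := osc_le_add (hu.isBounded hρ hx') (by positivity) h4
  have h6 := osc_le_add (v := u) (v' := v l) (ε := ε / 3) ((h.bdd l).isBounded _) (by positivity)
    fun y hy => by rw [abs_sub_comm]; exact h4 y hy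
  rw [Real.dist_eq, abs_lt]
  constructor <;> linarith

end Crest.Agent.R193
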