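import Crest.Agent.R193.D.Key
import Crest.Agent.R193.D.Growth

/-!
# R193/D/NoPic: there is no picture

`u, x₀` from `exists_lim`, `r₀ = dist x₀ b / 2`, `j` and `> N₁` good cells `y ∈ T` at level `n` from `growth`; `g y` adapted at `(y, sc n)` (`exists_ad`).
`two_points`: in `cell n y` two points `x₁, x₂` with `NLC` and `u x₂ - u x₁ ≥ 3m/5` (points of `frontier {s_i < u}`, where `u = s_i` by continuity).
Colour of `y`: a pair of points of `net J` within `sc J` of `g y • x₁`, `g y • x₂`, where `4 C L² sc J ≤ sc j` and `4 C L sc J ≤ 1`.  The map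
`y ↦ g y • b` has fibres of size `≤ N` (`stab_bound`, `η = r₀`), `N₁ = |net J|² N`: pigeonhole
(`Finset.exists_lt_card_fiber_of_mul_lt_card_of_maps_to`) gives `y, y'` of the same colour with `g y • b ≠ g y' • b`.  `h = (g y')⁻¹ * g y`:
`Ad.inv_near` gives `dist x_i' (h x_i) < sc (n+j)`, so both lie in one level `n+j` cell meeting `cell n y'` (`exists_cell`); `h x_i ∈ terr n y'`, so `≠ b`.
`key` twice: `u (h x₁) = u (h b) = u (h x₂)`, but `u (h x₂) - u (h x₁) > 3m'/5 - 2m'/5`.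
-/

set_option autoImplicit false
open Set Metric Filter Topology MeasureTheory

namespace Crest.Agent.R193

variable {G : Type} [Group G] {Z : Type} [MetricSpace Z] [CompactSpace Z] [MulAction G Z]
  {Γ : Cov Z} {v : ℕ → Z → ℝ} {U : ℕ → Set Z} {k : ℕ → ℕ} {b : Z}

omit [CompactSpace Z] in
theorem two_points {u : Z → ℝ} {B : Set Z} (hB : IsPreconnected B) (ho : IsOpen B)
    (hu : ContinuousOn u B) (hm : 0 < osc u B) : ∃ x₁ ∈ B, ∃ x₂ ∈ B, NLC u x₁ ∧ NLC u x₂ ∧
      3 / 5 * osc u B ≤ u x₂ - u x₁ := by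
  obtain ⟨a, ha, b, hb, hab⟩ := exists_lt_of_lt_osc (v := u) (B := B) (M := 4 / 5 * osc u B)
    (by positivity) (by linarith)
  have key : ∀ s, u a ≤ s → s < u b → ∃ x ∈ B, NLC u x ∧ u x = s := fun s h1 h2 => by
    obtain ⟨x, hx, hf⟩ := Cut.inter_frontier (v := u) (s := s) ⟨⟨a, ha, h1⟩, b, hb, h2⟩ hB
    have hc : ContinuousAt u x := hu.continuousAt (ho.mem_nhds hx)
    rw [frontier_eq_closure_inter_closure] at hf
    have f1 := mem_closure_iff_frequently.1 hf.1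
    have f2 := mem_closure_iff_frequently.1 hf.2
    have e : u x = s := by
      refine le_antisymm (not_lt.1 fun h => ?_) (not_lt.1 fun h => ?_)
      · obtain ⟨z, hz, hz'⟩ := (f2.and_eventually (hc.eventually (lt_mem_nhds h))).exists
        exact hz hz'
      · obtain ⟨z, hz, hz'⟩ := (f1.and_eventually (hc.eventually (gt_mem_nhds h))).exists
        exact lt_asymm hz hz'
    refine ⟨x, hx, fun r hr => ?_, e⟩
    obtain ⟨z, hz, hz'⟩ := (f1.and_eventually (ball_mem_nhds x hr)).exists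
    exact ⟨z, hz', by rw [e]; exact ne_of_gt hz⟩
  obtain ⟨x₁, h₁, n₁, e₁⟩ := key (u a) le_rfl (by linarith)
  obtain ⟨x₂, h₂, n₂, e₂⟩ := key (u a + 3 / 5 * osc u B) (by linarith) (by linarith)
  exact ⟨x₁, h₁, x₂, h₂, n₁, n₂, by linarith⟩

theorem no_pic (H : HA G Z) (h : Pic Γ v U k b) : False := by
  classical
  obtain ⟨u, hu, x₀, hx₀, hn⟩ := h.exists_lim H.sph
  have hL := Γ.L_pos
  have hL2 := Γ.two_le
  set r₀ := dist x₀ b / 2 with hr₀
  have hr : 0 < r₀ := by have := dist_pos.2 hx₀; positivity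
  have hW : ball x₀ r₀ ⊆ (ball b r₀)ᶜ := fun z hz hz' => by
    rw [mem_ball] at hz hz'
    have := dist_triangle x₀ z b
    rw [dist_comm x₀ z] at this
    linarith
  have hWb : ∀ z ∈ ball x₀ r₀, z ≠ b := fun z hz e => hW hz (e ▸ mem_ball_self hr)
  have hbd := hu.isBounded hr hW
  obtain ⟨j, hj⟩ := growth Γ
  obtain ⟨C₁, n₁, hE⟩ := hu.energy h hr
  obtain ⟨C, hC1, hC⟩ := H.exists_ad
  have hC0 : 0 < C := by linarith
  obtain ⟨N, hN⟩ := H.stab_bound C r₀ hr
  obtain ⟨J, hJ1, hJ2⟩ : ∃ J, 4 * C * Γ.L ^ 2 * sc J ≤ sc j ∧ 4 * C * Γ.L * sc J ≤ 1 := by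
    have t1 : Tendsto (fun n => 4 * C * Γ.L ^ 2 * sc n) atTop (𝓝 0) := by
      simpa using tendsto_sc.const_mul (4 * C * Γ.L ^ 2)
    have t2 : Tendsto (fun n => 4 * C * Γ.L * sc n) atTop (𝓝 0) := by
      simpa using tendsto_sc.const_mul (4 * C * Γ.L)
    exact ((t1.eventually (ge_mem_nhds (sc_pos j))).and (t2.eventually (ge_mem_nhds one_pos))).exists
  obtain ⟨n, T, hT, hT'⟩ := hj u x₀ r₀ C₁ n₁ hr hbd (hu.flowOn h hr hW) hn
    (fun n hn => (Γ.En_mono _ _ hW).trans (hE n hn)) ((Γ.net J ×ˢ Γ.net J).card * N)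
  have hs := sc_pos n
  choose g hg using fun y => hC y (sc n) hs (sc_le_one n)
  have hct : ∀ y, Γ.cell n y ⊆ Γ.terr n y := fun y => (Γ.sup n y).trans
    (ball_subset_ball (mul_le_mul_of_nonneg_right (by linarith) hs.le))
  have hpt : ∀ y ∈ T, ∃ x₁ ∈ Γ.cell n y, ∃ x₂ ∈ Γ.cell n y, NLC u x₁ ∧ NLC u x₂ ∧
      3 / 5 * osc u (Γ.cell n y) ≤ u x₂ - u x₁ := fun y hy =>
    two_points (Γ.conn n y) (Γ.isOpen n y)
      (hu.cont.mono fun z hz => hWb z ((hT' y hy).2.1 (hct y hz))) (hT' y hy).2.2.1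
  choose! x₁ hx₁ x₂ hx₂ hn₁ hn₂ hx using hpt
  choose col hcol hcol' using Γ.dense J
  obtain ⟨c, -, hc⟩ := Finset.exists_lt_card_fiber_of_mul_lt_card_of_maps_to
    (f := fun y => (col (g y • x₁ y), col (g y • x₂ y))) (t := Γ.net J ×ˢ Γ.net J)
    (fun y _ => Finset.mem_product.2 ⟨hcol _, hcol _⟩) hT
  set T' := T.filter (fun y => (col (g y • x₁ y), col (g y • x₂ y)) = c) with hT'd
  obtain ⟨y', hy'⟩ : T'.Nonempty := Finset.card_pos.1 (by omega)
  obtain ⟨y, hy, hne⟩ : ∃ y ∈ T', g y • b ≠ g y' • b := by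
    by_contra hcon
    push Not at hcon
    refine absurd (hN (sc n) T' g b (g y' • b) hs (sc_le_one n) (fun a ha a' ha' hne => Γ.sep n a
      (hT' a (Finset.mem_filter.1 ha).1).1 a' (hT' a' (Finset.mem_filter.1 ha').1).1 hne)
      fun a ha => ⟨hg a, ?_, hcon a ha⟩) (not_le.2 hc)
    simpa using hW ((hT' a (Finset.mem_filter.1 ha).1).2.1 (hct a (Γ.mem_cell n a)))
  obtain ⟨hyT, hyc⟩ := Finset.mem_filter.1 hy
  obtain ⟨hyT', hyc'⟩ := Finset.mem_filter.1 hy'
  have hγ : ((g y')⁻¹ * g y) • b ≠ b := fun e => hne (by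
    rw [mul_smul, inv_smul_eq_iff] at e; exact e)
  have main : ∀ a ∈ Γ.cell n y, ∀ a' ∈ Γ.cell n y', NLC u a → col (g y • a) = col (g y' • a') →
      |u a' - u (((g y')⁻¹ * g y) • b)| < osc u (Γ.cell n y') / 5 := fun a ha a' ha' hna hc => by
    set z := ((g y')⁻¹ * g y) • a with hz
    have e : g y' • z = g y • a := by rw [hz, mul_smul, smul_inv_smul]
    have hD : dist (g y' • a') (g y' • z) < 2 * sc J := by
      rw [e]
      have h1 := hcol' (g y • a)
      have h2 := hcol' (g y' • a')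
      rw [hc] at h1
      linarith [dist_triangle_right (g y' • a') (g y • a) (col (g y' • a'))]
    have h1 : C * Γ.L * dist (g y' • a') (g y' • z) ≤ 1 / 2 := by
      have := mul_le_mul_of_nonneg_left hD.le (by positivity : 0 ≤ C * Γ.L)
      linarith
    have h2 := (hg y').inv_near hC0 hs (by linarith) (le_of_lt (Γ.sup n y' ha')) h1
    have h3 : dist a' z < sc (n + j) := by
      have h4 := mul_lt_mul_of_pos_left hD (by positivity : 0 < 2 * C * Γ.L ^ 2 * sc n)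
      have h5 := mul_le_mul_of_nonneg_left hJ1 hs.le
      rw [sc_add]
      linarith
    obtain ⟨x, hxn, hxd, hx1, hx2⟩ := Γ.exists_cell (n + j) a'
    have hsj : sc (n + j) ≤ sc n := sc_anti (by omega)
    have ha'y : dist a' y' < Γ.L * sc n := Γ.sup n y' ha'
    have hsub : Γ.cell (n + j) x ⊆ ball x₀ r₀ := fun p hp => (hT' y' hyT').2.1 (by
      have h4 : dist p a' < (Γ.L + 1) * sc (n + j) := hx2 hp
      have h5 : (Γ.L + 1) * sc (n + j) ≤ (Γ.L + 1) * sc n :=
        mul_le_mul_of_nonneg_left hsj (by linarith)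
      have h6 := dist_triangle p a' y'
      exact mem_ball.2 (by linarith))
    have ha'c : a' ∈ Γ.cell (n + j) x := hx1 (mem_ball_self (sc_pos _))
    have hzc : z ∈ Γ.cell (n + j) x := hx1 (by rw [mem_ball, dist_comm]; exact h3)
    have h7 := (hT' y' hyT').2.2.2 x hxn ⟨a', ha'c, ha'⟩
    have h8 := abs_sub_le_osc (hbd.subset (image_mono hsub)) ha'c hzc
    rw [← key H h hu hγ (hWb a ((hT' y hyT).2.1 (hct y ha))) (hWb z (hsub hzc)) hna]
    exact h8.trans_lt h7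
  have e := hyc.trans hyc'.symm
  have m₁ := main _ (hx₁ y hyT) _ (hx₁ y' hyT') (hn₁ y hyT) (congrArg Prod.fst e)
  have m₂ := main _ (hx₂ y hyT) _ (hx₂ y' hyT') (hn₂ y hyT) (congrArg Prod.snd e)
  have := hx y' hyT'
  have := (hT' y' hyT').2.2.1
  linarith [(abs_lt.1 m₁).1, (abs_lt.1 m₂).2]

end Crest.Agent.R193
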