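import Crest.Agent.R193.D.Ener
import Crest.Agent.R193.D.NoPic

/-!
# R193/D/Main: pull-back of records, main estimate

`pic_of_rec`: for each `l` a record with `m = l + m₀` (`2L+1 ≤ 2^m₀`).  `z l ∉ ball y (2^m sc n)` from `RR.exists_conn` (the cell is cut by some level).  `g l` adapted at
`(y, sc n)`, `v' z = (v (g⁻¹ z) - v y)/M`, `U' = g '' ball`, `k' = k - n`, `b = lim_𝒰 g z`.  `dom`: `Ad.far`.  For `ρ > 0` take `R ≥ 1` with `2C/R < ρ/2`: eventually
`g⁻¹ (ball b ρ)ᶜ ⊆ ball y (R sc n)` (`Ad.far`), where `g⁻¹` is bi-Lipschitz with factor `sc n` (`Ad.low`, `Ad.up`): `En_comp` with `a = n`, `W' = ball y (2^q sc n)`,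
`R + L + 1 ≤ 2^q`; `fine` from `Rec.up`, `Rec.big`; `ener` from `Rec.energy`; `nop` from `Rec.equi`; `base`: `x₀ = lim g y`, `Ad.sep`, `nop` at `x₀`;
`ncst`: `exists_lt_of_lt_osc`, `Ad.sep` with `R = L`.
-/

set_option autoImplicit false
open Set Metric Filter Topology MeasureTheory

namespace Crest.Agent.R193

variable {G : Type} [Group G] {Z : Type} [MetricSpace Z] [CompactSpace Z] [MulAction G Z]

theorem exists_tendsto_𝒰 {X : Type} [TopologicalSpace X] [CompactSpace X] (f : ℕ → X) :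
    ∃ b, Tendsto f 𝒰 (𝓝 b) := by
  have : Nonempty X := ⟨f 0⟩
  exact ⟨_, (Ultrafilter.map f (hyperfilter ℕ)).le_nhds_lim⟩

theorem pic_of_rec (H : HA G Z) (Γ : Cov Z) {w : ℕ → ℝ} (hw : Wt Γ w)
    (h : ∀ m : ℕ, 2 * Γ.L + 1 ≤ 2 ^ m →
      ∃ (n k : ℕ) (y : Z) (v : Z → ℝ) (A : ℝ), Rec Γ w m n k y v A) :
    ∃ (v : ℕ → Z → ℝ) (U : ℕ → Set Z) (k : ℕ → ℕ) (b : Z), Pic Γ v U k b := by
  have _ := H.ccs
  have hL := Γ.L_pos
  have hL2 := Γ.two_le
  obtain ⟨m₀, hm₀⟩ : ∃ m₀ : ℕ, 2 * Γ.L + 1 ≤ 2 ^ m₀ :=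
    (pow_unbounded_of_one_lt _ (by norm_num : (1 : ℝ) < 2)).imp fun _ h => h.le
  have hm : ∀ l : ℕ, 2 * Γ.L + 1 ≤ 2 ^ (l + m₀) := fun l =>
    hm₀.trans (pow_le_pow_right₀ (by norm_num) (by omega))
  choose n k y v A hR using fun l : ℕ => h (l + m₀) (hm l)
  obtain ⟨C, hC1, hC⟩ := H.exists_ad
  have hC0 : 0 < C := by linarith
  choose g hg using fun l => hC (y l) (sc (n l)) (sc_pos _) (sc_le_one _)
  set M : ℕ → ℝ := fun l => osc (v l) (Γ.cell (n l) (y l)) with hM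
  have hM0 : ∀ l, 0 < M l := fun l => (hR l).pos
  have hab : ∀ l, ∃ a ∈ Γ.cell (n l) (y l), ∃ a' ∈ Γ.cell (n l) (y l),
      M l / 2 < v l a' - v l a := fun l =>
    exists_lt_of_lt_osc (by linarith [hM0 l]) (by linarith [hM0 l])
  choose a ha a' ha' haa using hab
  have hz : ∀ l, ∃ z, 2 ^ (l + m₀) * sc (n l) ≤ dist z (y l) := fun l => by
    obtain ⟨K, -, -, -, z, -, hz⟩ := (hR l).rr.exists_conn (Γ.conn (n l) (y l))
      ((Γ.sup _ _).trans (ball_subset_ball (mul_le_mul_of_nonneg_right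
        (by linarith [hm l]) (sc_pos _).le))) (s := v l (a l))
      ⟨⟨a l, ha l, le_rfl⟩, a' l, ha' l, by linarith [haa l, hM0 l]⟩
    exact ⟨z, by simpa using hz⟩
  choose z hz using hz
  obtain ⟨b, hb⟩ := exists_tendsto_𝒰 (fun l => g l • z l)
  obtain ⟨x₀, hx₀⟩ := exists_tendsto_𝒰 (fun l => g l • y l)
  set v' : ℕ → Z → ℝ := fun l x => (v l ((g l)⁻¹ • x) - v l (y l)) / M l with hv'
  have hbdd : ∀ l, Bdd (v' l) := fun l => by
    obtain ⟨B, hB⟩ := (hR l).bdd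
    refine ⟨(B + B) / M l, fun x => ?_⟩
    rw [hv', abs_div, abs_of_pos (hM0 l)]
    exact div_le_div_of_nonneg_right ((abs_sub _ _).trans (add_le_add (hB _) (hB _))) (hM0 l).le
  have htop : Tendsto (fun l : ℕ => (2 : ℝ) ^ (l + m₀)) 𝒰 atTop :=
    ((tendsto_pow_atTop_atTop_of_one_lt (by norm_num)).comp (tendsto_add_atTop_nat m₀)).mono_left 𝒰_le
  have hev : ∀ j : ℕ, ∀ᶠ l : ℕ in 𝒰, j ≤ l := fun j => 𝒰_le (eventually_ge_atTop j)
  have hbd : ∀ ρ : ℝ, 0 < ρ → ∀ᶠ l in 𝒰, dist (g l • z l) b < ρ := fun ρ hρ =>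
    Metric.tendsto_nhds.1 hb ρ hρ
  have far : ∀ ρ : ℝ, 0 < ρ → ∃ R : ℝ, 1 ≤ R ∧ ∀ᶠ l in 𝒰, R ≤ 2 ^ (l + m₀) ∧
      ∀ x, ρ ≤ dist x b → dist ((g l)⁻¹ • x) (y l) < R * sc (n l) := fun ρ hρ => by
    have h0 : 0 < 4 * C / ρ := by positivity
    refine ⟨4 * C / ρ + 1, by linarith, ?_⟩
    filter_upwards [htop.eventually (eventually_ge_atTop (4 * C / ρ + 1)), hbd (ρ / 2) (by positivity)]
      with l h1 h2
    refine ⟨h1, fun x hx => ?_⟩
    by_contra hc
    have h3 := (hg l).far hC0 (sc_pos _) (by positivity) (not_lt.1 hc)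
      ((mul_le_mul_of_nonneg_right h1 (sc_pos _).le).trans (hz l))
    rw [smul_inv_smul] at h3
    have h4 : 2 * C / (4 * C / ρ + 1) ≤ ρ / 2 := by
      rw [div_le_iff₀ (by positivity)]
      have : ρ / 2 * (4 * C / ρ) = 2 * C := by field_simp; ring
      nlinarith
    linarith [dist_triangle x (g l • z l) b]
  have comp : ∀ ρ : ℝ, 0 < ρ → ∃ (N q : ℕ) (K : ℝ), 0 < K ∧ ∀ᶠ l in 𝒰,
      (∀ x, ρ ≤ dist x b → (g l)⁻¹ • x ∈ ball (y l) (2 ^ q * sc (n l))) ∧
      (∀ x, ρ ≤ dist x b → ∀ x', ρ ≤ dist x' b →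
        dist ((g l)⁻¹ • x) ((g l)⁻¹ • x') ≤ K * sc (n l) * dist x x') ∧
      ∀ j, Γ.En j (v' l) (ball b ρ)ᶜ ≤
        N * Γ.En (j + n l) (v l) (ball (y l) (2 ^ q * sc (n l))) / M l ^ 2 := fun ρ hρ => by
    obtain ⟨R, hR1, hfar⟩ := far ρ hρ
    obtain ⟨N, hN⟩ := Γ.En_comp (C * R ^ 2)
    obtain ⟨q, hq⟩ : ∃ q : ℕ, R + Γ.L + 1 ≤ 2 ^ q :=
      (pow_unbounded_of_one_lt _ (by norm_num : (1 : ℝ) < 2)).imp fun _ h => h.le
    refine ⟨N, q, C * R ^ 2, by positivity, ?_⟩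
    filter_upwards [hfar] with l hl
    have hs := sc_pos (n l)
    have hup : ∀ x, ρ ≤ dist x b → ∀ x', ρ ≤ dist x' b →
        dist ((g l)⁻¹ • x) ((g l)⁻¹ • x') ≤ C * R ^ 2 * sc (n l) * dist x x' := fun x hx x' hx' => by
      have := (hg l).low hC0 hs hR1 (hl.2 x hx).le (hl.2 x' hx').le
      rw [smul_inv_smul, smul_inv_smul, div_le_iff₀ (by positivity)] at this
      linarith
    refine ⟨fun x hx => mem_ball.2 ((hl.2 x hx).trans_le
      (mul_le_mul_of_nonneg_right (by linarith) hs.le)), hup, fun j => ?_⟩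
    rw [hv']
    simp only
    rw [Γ.En_affine j (fun x => v l ((g l)⁻¹ • x)) _ _ (hM0 l)]
    refine div_le_div_of_nonneg_right (hN j (n l) (v l) (fun x => (g l)⁻¹ • x) _ _ (hR l).bdd
      (continuous_const_smul _).continuousOn
      (fun x hx x' hx' => hup x (by simpa using hx) x' (by simpa using hx'))
      (fun x _ x' _ => ?_) (fun x hx x' hx' => ?_)) (by positivity)
    · have := (hg l).up hs ((g l)⁻¹ • x) ((g l)⁻¹ • x')
      rw [smul_inv_smul, smul_inv_smul, le_div_iff₀ hs] at this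
      have h2 : C * dist ((g l)⁻¹ • x) ((g l)⁻¹ • x') ≤
          C * R ^ 2 * dist ((g l)⁻¹ • x) ((g l)⁻¹ • x') :=
        mul_le_mul_of_nonneg_right (le_mul_of_one_le_right hC0.le (one_le_pow₀ hR1)) dist_nonneg
      linarith
    · have h1 := hl.2 x (by simpa using hx)
      have h2 : (Γ.L + 1) * sc (j + n l) ≤ (Γ.L + 1) * sc (n l) :=
        mul_le_mul_of_nonneg_left (sc_anti (by omega)) (by linarith)
      have h3 : (R + Γ.L + 1) * sc (n l) ≤ 2 ^ q * sc (n l) := mul_le_mul_of_nonneg_right hq hs.le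
      rw [mem_ball] at hx' ⊢
      have h4 := dist_triangle x' ((g l)⁻¹ • x) (y l)
      linarith
  have nop : ∀ p, p ≠ b → ∀ ε : ℝ, 0 < ε → ∃ r : ℝ, 0 < r ∧
      ∀ᶠ l in 𝒰, osc (v' l) (ball p r) ≤ ε := fun p hp ε hε => by
    have hpb : 0 < dist p b := dist_pos.2 hp
    obtain ⟨N, q, K, hK, hc⟩ := comp (dist p b / 2) (by positivity)
    obtain ⟨J, hJ⟩ := Rec.equi hw q hε
    have hJ0 := sc_pos J
    refine ⟨min (dist p b / 2) (sc J / K), by positivity, ?_⟩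
    filter_upwards [hc, hev J, hev (q + 3)] with l hl h1 h2
    have h3 := hJ _ _ _ _ _ _ (hR l) (by omega) (by omega) _ (hl.1 p (by linarith))
    rw [hv']
    simp only
    rw [osc_affine (fun x => v l ((g l)⁻¹ • x)) _ _ (hM0 l), div_le_iff₀ (hM0 l), osc_comp]
    refine (osc_mono ((hR l).bdd.isBounded _) ?_).trans h3
    rintro _ ⟨x, hx, rfl⟩
    rw [mem_ball, lt_min_iff] at hx
    have h4 := dist_triangle p x b
    rw [dist_comm p x] at h4
    have h5 := hl.2.1 x (by linarith [hx.1]) p (by linarith)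
    have h6 : K * sc (n l) * dist x p < K * sc (n l) * (sc J / K) :=
      mul_lt_mul_of_pos_left hx.2 (mul_pos hK (sc_pos _))
    have h7 : K * sc (n l) * (sc J / K) = sc (n l + J) := by rw [sc_add]; field_simp
    exact mem_ball.2 (h5.trans_lt (h7 ▸ h6))
  have sepL : ∀ l, ∀ x ∈ Γ.cell (n l) (y l), 1 / (2 * C * Γ.L) ≤ dist (g l • x) (g l • z l) :=
    fun l x hx => (hg l).sep hC0 (sc_pos _) (by linarith) (le_of_lt (Γ.sup _ _ hx))
      ((mul_le_mul_of_nonneg_right (by linarith [hm l]) (sc_pos _).le).trans (hz l))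
  have sepb : ∀ᶠ l in 𝒰, ∀ x ∈ Γ.cell (n l) (y l), 1 / (2 * C * Γ.L) / 2 ≤ dist (g l • x) b := by
    filter_upwards [hbd (1 / (2 * C * Γ.L) / 2) (by positivity)] with l hl x hx
    have h1 := sepL l x hx
    have h2 := dist_triangle (g l • x) b (g l • z l)
    rw [dist_comm b] at h2
    linarith
  refine ⟨v', fun l => Homeomorph.smul (g l) '' ball (y l) (2 ^ (l + m₀) * sc (n l)),
    fun l => k l - n l, b, hbdd, Eventually.of_forall fun l => ?_, fun ρ hρ => ?_, ?_,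
    fun ρ hρ => ?_, fun ρ hρ => ?_, nop, ?_, ?_⟩
  · exact ((hR l).rr.comp (Homeomorph.smul (g l))).affine _ (hM0 l)
  · obtain ⟨R, -, hfar⟩ := far ρ hρ
    filter_upwards [hfar] with l hl x hx
    exact ⟨(g l)⁻¹ • x, mem_ball.2 ((hl.2 x (by simpa using hx)).trans_le
      (mul_le_mul_of_nonneg_right hl.1 (sc_pos _).le)), smul_inv_smul _ _⟩
  · refine tendsto_atTop.2 fun j => ?_
    filter_upwards [hev j] with l hl
    have := (hR l).gap
    omega
  · obtain ⟨N, q, K, -, hc⟩ := comp ρ hρ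
    have hwq := hw.pos q
    have ht : Tendsto (fun l : ℕ => (N * 2 / w q) / (l : ℝ)) 𝒰 (𝓝 0) :=
      (tendsto_const_div_atTop_nhds_zero_nat _).mono_left 𝒰_le
    refine squeeze_zero' (Eventually.of_forall fun l => Γ.En_nonneg _ _ _) ?_ ht
    filter_upwards [hc, hev q, hev 1] with l hl h1 h2
    have h3 := hl.2.2 (k l - n l)
    rw [Nat.sub_add_cancel (by have := (hR l).gap; omega)] at h3
    have h4 := (hR l).up q (by omega)
    have h5 : (l : ℝ) ≤ A l := le_trans (by push_cast; linarith [Nat.cast_nonneg (α := ℝ) m₀]) (hR l).big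
    have hl0 : (0 : ℝ) < l := by exact_mod_cast h2
    have hE := Γ.En_nonneg (k l) (v l) (ball (y l) (2 ^ q * sc (n l)))
    refine h3.trans ?_
    have hMl := hM0 l
    rw [div_div, div_le_div_iff₀ (by positivity) (by positivity)]
    have h6 : l * w q * Γ.En (k l) (v l) (ball (y l) (2 ^ q * sc (n l))) ≤ 2 * M l ^ 2 :=
      le_trans (mul_le_mul_of_nonneg_right (mul_le_mul_of_nonneg_right h5 hwq.le) hE) h4
    have h7 := mul_le_mul_of_nonneg_left h6 (Nat.cast_nonneg (α := ℝ) N)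
    linarith
  · obtain ⟨N, q, K, -, hc⟩ := comp ρ hρ
    obtain ⟨C', hC'⟩ := Rec.energy hw q
    refine ⟨N * C', 2, fun j hj => ?_⟩
    filter_upwards [hc, hev (q + 2), hev j] with l hl h1 h2
    have h3 := hC' _ _ _ j _ _ _ (hR l) hj (by have := (hR l).gap; omega) (by omega)
    have hMl := hM0 l
    refine (hl.2.2 j).trans ?_
    rw [div_le_iff₀ (by positivity), add_comm j, mul_assoc]
    exact mul_le_mul_of_nonneg_left h3 (Nat.cast_nonneg _)
  · have hne : x₀ ≠ b := fun e => by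
      have h1 := ge_of_tendsto (hx₀.dist (tendsto_const_nhds (x := b)))
        (sepb.mono fun l hl => hl _ (Γ.mem_cell _ _))
      rw [e, dist_self] at h1
      have : 0 < 1 / (2 * C * Γ.L) / 2 := by positivity
      linarith
    obtain ⟨r, hr, h1⟩ := nop x₀ hne 1 one_pos
    refine ⟨x₀, hne, 1, ?_⟩
    filter_upwards [h1, Metric.tendsto_nhds.1 hx₀ r hr] with l h2 h3
    have h4 := abs_sub_le_osc ((hbdd l).isBounded (ball x₀ r)) (mem_ball_self hr) (mem_ball.2 h3)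
    have h5 : v' l (g l • y l) = 0 := by simp [hv']
    rw [h5, sub_zero] at h4
    exact h4.trans h2
  · refine ⟨1 / (2 * C * Γ.L) / 2, 1 / 2, by positivity, by norm_num, ?_⟩
    filter_upwards [sepb] with l hl
    refine ⟨g l • a' l, g l • a l, hl _ (ha' l), hl _ (ha l), le_trans ?_ (le_abs_self _)⟩
    have hMl := hM0 l
    simp only [hv', inv_smul_smul]
    rw [← sub_div, le_div_iff₀ hMl]
    linarith [haa l]

theorem mainEst (H : HA G Z) (Γ : Cov Z) : MainEst Γ := by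
  by_contra hn
  obtain ⟨w, hw⟩ := exists_wt Γ
  obtain ⟨v, U, k, b, hp⟩ := pic_of_rec H Γ hw (fun m hm => exists_rec Γ hw hn hm)
  exact no_pic H hp

end Crest.Agent.R193
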