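import Crest.Agent.R193.D.Defs

/-!
# R193/D/Rec: weights and records

`exists_rec`: fix `m` with `2L + 1 ≤ 2^m`.  `Bnd f A`: every `(n, y, v)` with `y ∈ net n`, `Bdd v`, `RR v (ball y (2^m sc n))` has
`osc² ≤ A ∑_{q ≤ m} w q En (n+f) v (ball y (2^q sc n))`.  `Bnd f (N_f / w m)` by `osc_sq_le (L 2^f)`.  `Φ f = sInf {A | 0 ≤ A ∧ Bnd f A}` satisfies
`Bnd f (Φ f)` (closed condition).  `Φ` is unbounded, otherwise `MainEst` holds (`∑ w q ≤ 2`, `En_mono`).  Take `f₁` with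
`Φ f₁ > max (m, Φ 0, …, Φ (m-1))`, `f ≤ f₁` maximising `Φ` on `[0, f₁]` (so `f ≥ m`), `A = Φ f`, and a violator of `Bnd f (A/2)`.
-/

set_option autoImplicit false
open Set Metric Filter Topology MeasureTheory

namespace Crest.Agent.R193

variable {Z : Type} [MetricSpace Z] (Γ : Cov Z)

theorem exists_wt : ∃ w : ℕ → ℝ, Wt Γ w := by
  let a : ℕ → ℝ := fun s => 1 + (Γ.nb s : ℝ) + (Γ.ns s : ℝ) ^ 2
  have ha : ∀ s, 0 < a s := fun s => by positivity
  let M : ℕ → ℝ := fun q => ∑ s ∈ Finset.range (q + 3), a s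
  have hM : ∀ q, 0 < M q := fun q => Finset.sum_pos (fun s _ => ha s) (by simp)
  let w : ℕ → ℝ := fun q => Nat.rec 1 (fun q x => sc (q + 1) * x / M q) q
  have hw : ∀ q, 0 < w q := fun q => by
    induction q with
    | zero => exact one_pos
    | succ q ih => exact div_pos (mul_pos (sc_pos _) ih) (hM q)
  refine ⟨w, hw, le_rfl, fun q s hs => ?_⟩
  have h1 : a s ≤ M q := Finset.single_le_sum (f := a) (fun s _ => (ha s).le)
    (Finset.mem_range.2 (by omega))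
  have h2 : w (q + 1) * M q = sc (q + 1) * w q := div_mul_cancel₀ _ (hM q).ne'
  exact (mul_le_mul_of_nonneg_left h1 (hw (q + 1)).le).trans_eq h2

theorem Wt.half {Γ : Cov Z} {w : ℕ → ℝ} (hw : Wt Γ w) (q : ℕ) : w (q + 1) ≤ w q / 2 := by
  have h1 := hw.step q 0 (by omega)
  have h2 : w (q + 1) ≤ w (q + 1) * (1 + (Γ.nb 0 : ℝ) + (Γ.ns 0 : ℝ) ^ 2) :=
    le_mul_of_one_le_right (hw.pos _).le (by
      have : (0 : ℝ) ≤ (Γ.nb 0 : ℝ) + (Γ.ns 0 : ℝ) ^ 2 := by positivity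
      linarith)
  have h3 : sc (q + 1) ≤ 1 / 2 := by rw [sc_succ]; linarith [sc_le_one q]
  have h4 := mul_le_mul_of_nonneg_right h3 (hw.pos q).le
  linarith

theorem Wt.anti {Γ : Cov Z} {w : ℕ → ℝ} (hw : Wt Γ w) : Antitone w :=
  antitone_nat_of_succ_le fun q => (hw.half q).trans (by linarith [hw.pos q])

/-- tails: `∑_{s ≤ q < M} w q ≤ 2 w s` -/
theorem Wt.sum_le {Γ : Cov Z} {w : ℕ → ℝ} (hw : Wt Γ w) (s M : ℕ) :
    ∑ q ∈ Finset.Ico s M, w q ≤ 2 * w s := by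
  rcases le_or_gt s M with h | h
  · have : ∀ M, s ≤ M → ∑ q ∈ Finset.Ico s M, w q + 2 * w M ≤ 2 * w s := fun M hM => by
      induction M, hM using Nat.le_induction with
      | base => simp
      | succ M hM ih => rw [Finset.sum_Ico_succ_top hM]; linarith [hw.half M]
    linarith [this M h, hw.pos M]
  · rw [Finset.Ico_eq_empty_of_le h.le, Finset.sum_empty]
    linarith [hw.pos s]

theorem exists_rec {w : ℕ → ℝ} (hw : Wt Γ w) (h : ¬ MainEst Γ) {m : ℕ}
    (hm : 2 * Γ.L + 1 ≤ 2 ^ m) : ∃ (n k : ℕ) (y : Z) (v : Z → ℝ) (A : ℝ), Rec Γ w m n k y v A := by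
  have hL := Γ.L_pos
  let S : ℕ → ℕ → Z → (Z → ℝ) → ℝ := fun n k y v =>
    ∑ q ∈ Finset.range (m + 1), w q * Γ.En k v (ball y (2 ^ q * sc n))
  have hS0 : ∀ n k y v, 0 ≤ S n k y v := fun n k y v =>
    Finset.sum_nonneg fun q _ => mul_nonneg (hw.pos q).le (Γ.En_nonneg _ _ _)
  have hS1 : ∀ n k y v q, q ≤ m → w q * Γ.En k v (ball y (2 ^ q * sc n)) ≤ S n k y v :=
    fun n k y v q hq => Finset.single_le_sum
      (f := fun q => w q * Γ.En k v (ball y (2 ^ q * sc n)))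
      (fun q _ => mul_nonneg (hw.pos q).le (Γ.En_nonneg _ _ _)) (Finset.mem_range.2 (by omega))
  have hS2 : ∀ n k y v, S n k y v ≤ 2 * Γ.En k v (ball y (2 ^ m * sc n)) := fun n k y v => by
    have h1 : S n k y v ≤ ∑ q ∈ Finset.range (m + 1), w q * Γ.En k v (ball y (2 ^ m * sc n)) :=
      Finset.sum_le_sum fun q hq => mul_le_mul_of_nonneg_left (Γ.En_mono _ _ (ball_subset_ball
        (mul_le_mul_of_nonneg_right (pow_le_pow_right₀ (by norm_num)
          (by have := Finset.mem_range.1 hq; omega)) (sc_pos n).le))) (hw.pos q).le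
    rw [← Finset.sum_mul, Finset.range_eq_Ico] at h1
    exact h1.trans (mul_le_mul_of_nonneg_right ((hw.sum_le 0 _).trans (by linarith [hw.zero]))
      (Γ.En_nonneg _ _ _))
  let Bnd : ℕ → ℝ → Prop := fun f A => ∀ (n : ℕ) (y : Z) (v : Z → ℝ), y ∈ Γ.net n → Bdd v →
    RR v (ball y (2 ^ m * sc n)) → osc v (Γ.cell n y) ^ 2 ≤ A * S n (n + f) y v
  have hne : ∀ f, ∃ A, 0 ≤ A ∧ Bnd f A := fun f => by
    obtain ⟨N, hN⟩ := Γ.osc_sq_le (Γ.L * 2 ^ f)
    have hwm := hw.pos m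
    refine ⟨N / w m, by positivity, fun n y v _ hv _ => ?_⟩
    have hs := sc_pos n
    have e : Γ.L * 2 ^ f * sc (n + f) = Γ.L * sc n := by
      rw [sc_add, mul_comm (sc n), mul_assoc, ← mul_assoc (2 ^ f), two_pow_mul_sc, one_mul]
    have h1 := hN (n + f) v (Γ.cell n y) (ball y (2 ^ m * sc n)) y hv (Γ.conn n y)
      (e ▸ Γ.sup n y) fun z hz p hp => by
        have h2 : dist z y < Γ.L * sc n := Γ.sup n y hz
        have h3 : (Γ.L + 1) * sc (n + f) ≤ (Γ.L + 1) * sc n :=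
          mul_le_mul_of_nonneg_left (sc_anti (by omega)) (by linarith)
        have h4 := mul_le_mul_of_nonneg_right hm hs.le
        rw [mem_ball] at hp ⊢
        linarith [dist_triangle p z y]
    refine h1.trans ?_
    have h2 := mul_le_mul_of_nonneg_left (hS1 n (n + f) y v m le_rfl)
      (by positivity : 0 ≤ (N : ℝ) / w m)
    rwa [← mul_assoc, div_mul_cancel₀ _ hwm.ne'] at h2
  let Φ : ℕ → ℝ := fun f => sInf {A | 0 ≤ A ∧ Bnd f A}
  have hbb : ∀ f, BddBelow {A | 0 ≤ A ∧ Bnd f A} := fun f => ⟨0, fun A hA => hA.1⟩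
  have hΦ0 : ∀ f, 0 ≤ Φ f := fun f => le_csInf (hne f) fun A hA => hA.1
  have hΦ : ∀ f, Bnd f (Φ f) := fun f n y v hy hv hr => by
    rcases (hS0 n (n + f) y v).eq_or_lt with h0 | h0
    · obtain ⟨A, -, hA⟩ := hne f
      have := hA n y v hy hv hr
      rw [← h0] at this ⊢
      simpa using this
    · rw [← div_le_iff₀ h0]
      exact le_csInf (hne f) fun A hA => (div_le_iff₀ h0).2 (hA.2 n y v hy hv hr)
  have hunb : ∀ B : ℝ, ∃ f, B < Φ f := fun B => by
    by_contra hc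
    push Not at hc
    refine h ⟨m, 2 * B, by linarith [hc 0, hΦ0 0], fun n k y v hnk hy hv hr => ?_⟩
    obtain ⟨f, rfl⟩ := Nat.exists_eq_add_of_le hnk
    have h1 := hΦ f n y v hy hv hr
    have h2 := mul_le_mul (hc f) (hS2 n (n + f) y v) (hS0 _ _ _ _) (by linarith [hc 0, hΦ0 0])
    linarith
  obtain ⟨f₁, hf₁⟩ := hunb (m + ∑ f ∈ Finset.range m, Φ f)
  obtain ⟨f, hf, hmax⟩ := Finset.exists_max_image (Finset.range (f₁ + 1)) Φ (by simp)
  have h1 := hmax f₁ (by simp)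
  have hs0 : 0 ≤ ∑ f ∈ Finset.range m, Φ f := Finset.sum_nonneg fun f _ => hΦ0 f
  have hm0 : (0 : ℝ) ≤ m := Nat.cast_nonneg m
  have hfm : m ≤ f := by
    by_contra hc
    have := Finset.single_le_sum (f := Φ) (fun f _ => hΦ0 f) (Finset.mem_range.2 (not_le.1 hc))
    linarith
  have hnot : ¬ Bnd f (Φ f / 2) := fun hB => by
    have : Φ f ≤ Φ f / 2 := csInf_le (hbb f) ⟨by linarith [hΦ0 f], hB⟩
    linarith
  simp only [Bnd, not_forall, not_le] at hnot
  obtain ⟨n, y, v, hy, hv, hr, hlt⟩ := hnot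
  have hA := hΦ0 f
  refine ⟨n, n + f, y, v, Φ f, hy, hv, hr, by omega, by linarith, ?_, fun q hq => ?_,
    fun n' y' h1 h2 h3 h4 => ?_⟩
  · have : 0 < osc v (Γ.cell n y) ^ 2 :=
      lt_of_le_of_lt (mul_nonneg (by linarith) (hS0 _ _ _ _)) hlt
    exact lt_of_le_of_ne (osc_nonneg _ _) fun e => by rw [← e] at this; simp at this
  · have := mul_le_mul_of_nonneg_left (hS1 n (n + f) y v q hq) hA
    rw [mul_assoc]
    linarith
  · have h5 := hΦ (n + f - n') n' y' v h3 hv (hr.mono h4)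
    rw [Nat.add_sub_cancel' h2] at h5
    exact h5.trans (mul_le_mul_of_nonneg_right (hmax _ (Finset.mem_range.2
      (by have := Finset.mem_range.1 hf; omega))) (hS0 _ _ _ _))

end Crest.Agent.R193
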